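import Vale.Agent.P105.Next

namespace Vale.P105

open Finset

variable {β : ℝ} {σ : ℂ}

lemma half_not_integral : ¬ IsIntegral ℤ ((1 / 2 : ℚ) : ℝ) := by
  intro h
  have h1 : IsIntegral ℤ ((algebraMap ℚ ℝ) (1 / 2)) := by simpa using h
  rw [isIntegral_algebraMap_iff (algebraMap ℚ ℝ).injective] at h1
  obtain ⟨n, hn⟩ := IsIntegrallyClosed.isIntegral_iff.mp h1
  have h2 : (n : ℚ) = 1 / 2 := by simpa using hn
  have h3 : ((2 * n : ℤ) : ℚ) = ((1 : ℤ) : ℚ) := by push_cast; linarith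
  have h4 : 2 * n = 1 := by exact_mod_cast h3
  omega

lemma dz_lt_half_of_isIntegral {x : ℝ} (hx : IsIntegral ℤ x) : dz x < 1 / 2 := by
  refine lt_of_le_of_ne (dz_le_half x) ?_
  intro h
  have hint : ∀ n : ℤ, IsIntegral ℤ ((n : ℤ) : ℝ) := fun n => by
    have := isIntegral_algebraMap (R := ℤ) (A := ℝ) (x := n)
    simpa using this
  unfold dz at h
  rcases abs_cases (x - (round x : ℝ)) with h1 | h1
  · apply half_not_integral
    have h2 : ((1 / 2 : ℚ) : ℝ) = x - (round x : ℝ) := by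
      push_cast; linarith
    rw [h2]
    exact hx.sub (hint _)
  · apply half_not_integral
    have h2 : ((1 / 2 : ℚ) : ℝ) = (round x : ℝ) - x := by
      push_cast; linarith
    rw [h2]
    exact (hint _).sub hx

lemma isIntegral_zpow {x : ℝ} (hx : IsIntegral ℤ x) (hx' : IsIntegral ℤ x⁻¹) (j : ℤ) :
    IsIntegral ℤ (x ^ j) := by
  rcases Int.eq_nat_or_neg j with ⟨n, rfl | rfl⟩
  · rw [zpow_natCast]; exact hx.pow n
  · rw [zpow_neg, zpow_natCast, ← inv_pow]; exact hx'.pow n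

lemma sumB_exists (hβ : 2 ≤ β ^ 2) (hβ0 : 0 < β) {A : ℝ} (hA0 : 0 ≤ A) {w : ℤ}
    (hAw : A ≤ β ^ w) (hw : 0 ≤ w) {K : ℝ} (hK : 0 ≤ K) : ∃ S, SumB β A K S := by
  have hβ1 : (7 : ℝ) / 5 ≤ β := by nlinarith
  have hβ1' : 1 ≤ β := by linarith
  refine ⟨(K + w + 1) + 4, ?_⟩
  intro F hF
  rw [← Finset.sum_filter_add_sum_filter_not F (fun j => -w ≤ j)]
  set F1 := F.filter (fun j => -w ≤ j) with hF1
  set F2 := F.filter (fun j => ¬ (-w ≤ j)) with hF2
  have hF1mem : ∀ j ∈ F1, -w ≤ j ∧ (j : ℝ) ≤ K := by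
    intro j hj
    rw [hF1, Finset.mem_filter] at hj
    exact ⟨hj.2, hF j hj.1⟩
  have hF2mem : ∀ j ∈ F2, j < -w := by
    intro j hj
    rw [hF2, Finset.mem_filter] at hj
    omega
  apply add_le_add
  · calc ∑ j ∈ F1, dz (A * β ^ j) ^ 2 ≤ ∑ j ∈ F1, (1 : ℝ) := by
          apply Finset.sum_le_sum
          intro j _
          have h1 := dz_nonneg (A * β ^ j)
          have h2 := dz_le_half (A * β ^ j)
          nlinarith
      _ = F1.card := by simp
      _ ≤ K + w + 1 := by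
        have hsub : F1 ⊆ Finset.Icc (-w) ⌊K⌋ := by
          intro j hj
          rw [Finset.mem_Icc]
          exact ⟨(hF1mem j hj).1, Int.le_floor.mpr (hF1mem j hj).2⟩
        have h1 := Finset.card_le_card hsub
        rw [Int.card_Icc] at h1
        have h2 : (F1.card : ℝ) ≤ ((⌊K⌋ + 1 - -w).toNat : ℝ) := by exact_mod_cast h1
        refine h2.trans ?_
        have h3 : (0 : ℤ) ≤ ⌊K⌋ := Int.floor_nonneg.mpr hK
        have h4 : ((⌊K⌋ + 1 - -w).toNat : ℝ) = (⌊K⌋ : ℝ) + 1 + w := by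
          have : ((⌊K⌋ + 1 - -w).toNat : ℤ) = ⌊K⌋ + 1 - -w := Int.toNat_of_nonneg (by omega)
          have h5 : (((⌊K⌋ + 1 - -w).toNat : ℤ) : ℝ) = ((⌊K⌋ + 1 - -w : ℤ) : ℝ) := by rw [this]
          rw [Int.cast_natCast] at h5
          rw [h5]; push_cast; ring
        rw [h4]
        have := Int.floor_le K
        linarith
  · calc ∑ j ∈ F2, dz (A * β ^ j) ^ 2 ≤ ∑ j ∈ F2, β ^ (j - (-w)) := by
          apply Finset.sum_le_sum
          intro j hj
          have hj1 := hF2mem j hj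
          have h1 := dz_nonneg (A * β ^ j)
          have h2 := dz_le_abs (A * β ^ j)
          rw [abs_of_nonneg (by positivity)] at h2
          have h4 : A * β ^ j ≤ β ^ (j - (-w)) := by
            calc A * β ^ j ≤ β ^ w * β ^ j := by gcongr
              _ = β ^ (j - (-w)) := by rw [← zpow_add₀ hβ0.ne']; congr 1; ring
          have h5 : β ^ (j - (-w)) ≤ 1 := by
            apply zpow_le_one_of_nonpos₀ hβ1'
            omega
          nlinarith
      _ ≤ 4 := geom_bound_le hβ hβ0 F2 (-w) (fun j hj => by have := hF2mem j hj; omega)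

/-- A uniform margin for the first element. -/
lemma margin_exists (hβ : 2 ≤ β ^ 2) (hβ0 : 0 < β) (hσ : ‖σ‖ = 1) (hi : IsIntegral ℤ β)
    (hi' : IsIntegral ℤ β⁻¹) {n : ℕ} (hn : 1 ≤ n)
    (hadm : Adm β σ (β ^ (2 * (n : ℤ)) - 1) (2 * n) (σ ^ (2 * (n : ℤ)) - 1))
    (hC : ‖σ ^ (2 * (n : ℤ)) - 1‖ ≤ 1 / 10) :
    ∃ μ : ℝ, 0 < μ ∧ ∀ j : ℤ, dz ((β ^ (2 * (n : ℤ)) - 1) * β ^ j) ≤ 1 / 2 - μ := by
  have hβ1 : (7 : ℝ) / 5 ≤ β := by nlinarith
  have hβ1' : 1 ≤ β := by linarith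
  set A := β ^ (2 * (n : ℤ)) - 1 with hA
  set C := σ ^ (2 * (n : ℤ)) - 1 with hCdef
  have hA0 : 0 ≤ A := by
    rw [hA, sub_nonneg]
    apply one_le_zpow₀ hβ1'
    omega
  have hAw : A ≤ β ^ (2 * (n : ℤ)) := by rw [hA]; linarith
  have hb4 : β ^ (-4 : ℤ) ≤ 1 / 4 := by
    rw [zpow_neg, inv_eq_one_div]
    apply one_div_le_one_div_of_le (by norm_num)
    rw [show (4 : ℤ) = ((4 : ℕ) : ℤ) by norm_num, zpow_natCast]
    nlinarith
  -- far left
  have hleft : ∀ j : ℤ, j ≤ -(2 * (n : ℤ)) - 4 → dz (A * β ^ j) ≤ 1 / 4 := by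
    intro j hj
    refine (dz_le_abs _).trans ?_
    rw [abs_of_nonneg (by positivity)]
    calc A * β ^ j ≤ β ^ (2 * (n : ℤ)) * β ^ j := by gcongr
      _ = β ^ (2 * (n : ℤ) + j) := by rw [← zpow_add₀ hβ0.ne']
      _ ≤ β ^ (-4 : ℤ) := by
          apply zpow_le_zpow_right₀ hβ1'
          omega
      _ ≤ 1 / 4 := hb4
  have hright : ∀ j : ℤ, 4 ≤ j → dz (A * β ^ j) ≤ 9 / 20 := by
    intro j hj
    obtain ⟨s, hs, h⟩ := hadm
    obtain ⟨m, hm⟩ := h j
    have key : A * β ^ j = 0 + (-(s * (A * β ^ (-(2 * (n : ℤ)) - j)))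
        - 2 * (C * σ ^ j).re) + (m : ℝ) := by
      rw [← hm]; ring
    have h3 := dz_le_of_int key
    have h00 : dz 0 = 0 := by simp [dz]
    rw [h00, zero_add] at h3
    refine h3.trans ((abs_sub _ _).trans ?_)
    rw [abs_neg]
    have h4 : |s * (A * β ^ (-(2 * (n : ℤ)) - j))| ≤ 1 / 4 := by
      rw [abs_mul]
      have : |s| = 1 := by rcases hs with rfl | rfl <;> norm_num
      rw [this, one_mul, abs_of_nonneg (by positivity)]
      calc A * β ^ (-(2 * (n : ℤ)) - j) ≤ β ^ (2 * (n : ℤ)) * β ^ (-(2 * (n : ℤ)) - j) := by gcongr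
        _ = β ^ (-j) := by rw [← zpow_add₀ hβ0.ne']; congr 1; ring
        _ ≤ β ^ (-4 : ℤ) := by
            apply zpow_le_zpow_right₀ hβ1'
            omega
        _ ≤ 1 / 4 := hb4
    have h5 : |2 * (C * σ ^ j).re| ≤ 1 / 5 := by
      rw [abs_mul, abs_of_pos (by norm_num : (0:ℝ) < 2)]
      have : |(C * σ ^ j).re| ≤ ‖C‖ := by
        refine (Complex.abs_re_le_norm _).trans ?_
        rw [norm_mul _ (σ ^ j), norm_zpow, hσ, one_zpow, mul_one]
      linarith
    linarith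
  -- the middle
  have hmid : ∀ j : ℤ, dz (A * β ^ j) < 1 / 2 := by
    intro j
    apply dz_lt_half_of_isIntegral
    apply IsIntegral.mul
    · rw [hA]
      exact (isIntegral_zpow hi hi' _).sub isIntegral_one
    · exact isIntegral_zpow hi hi' _
  set F := Finset.Icc (-(2 * (n : ℤ)) - 4) 4 with hF
  have hne : F.Nonempty := ⟨0, by rw [hF, Finset.mem_Icc]; omega⟩
  set M := F.sup' hne (fun j => dz (A * β ^ j)) with hM
  have hMlt : M < 1 / 2 := by
    rw [hM, Finset.sup'_lt_iff]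
    intro j _
    exact hmid j
  refine ⟨min (1 / 20) (1 / 2 - M), by
    apply lt_min (by norm_num); linarith, ?_⟩
  intro j
  have hmin1 := min_le_left (1 / 20 : ℝ) (1 / 2 - M)
  have hmin2 := min_le_right (1 / 20 : ℝ) (1 / 2 - M)
  rcases le_or_gt j (-(2 * (n : ℤ)) - 4) with h1 | h1
  · have := hleft j h1; linarith
  rcases le_or_gt 4 j with h2 | h2
  · have := hright j h2; linarith
  · have : dz (A * β ^ j) ≤ M := by
      rw [hM]
      exact Finset.le_sup' (fun j => dz (A * β ^ j)) (by rw [hF, Finset.mem_Icc]; omega)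
    linarith

end Vale.P105
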