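import Vale.Agent.P105.Base

namespace Vale.P105

open Finset

variable {β : ℝ} {σ : ℂ}

lemma exists_pow_small (hβ : 2 ≤ β ^ 2) (hβ0 : 0 < β) (w : ℤ) {e : ℝ} (he : 0 < e) :
    ∃ N : ℕ, ∀ n : ℤ, (N : ℤ) ≤ n → β ^ (w - n) ≤ e := by
  have hβ1 : (7 : ℝ) / 5 ≤ β := by nlinarith
  have hβ1' : 1 ≤ β := by linarith
  have ht : Filter.Tendsto (fun r : ℕ => β ^ r) Filter.atTop Filter.atTop :=
    tendsto_pow_atTop_atTop_of_one_lt (by linarith)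
  obtain ⟨r, hr⟩ := (ht.eventually (Filter.eventually_ge_atTop (e⁻¹))).exists
  refine ⟨(w + r).toNat, ?_⟩
  intro n hn
  have h1 : w + r ≤ n := by
    have := Int.self_le_toNat (w + r)
    omega
  calc β ^ (w - n) ≤ β ^ (-(r : ℤ)) := by
        apply zpow_le_zpow_right₀ hβ1'
        omega
    _ = (β ^ r)⁻¹ := by rw [zpow_neg, zpow_natCast]
    _ ≤ (e⁻¹)⁻¹ := by
        apply inv_anti₀ (by positivity) hr
    _ = e := inv_inv e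

lemma two_le_zpow (hβ : 2 ≤ β ^ 2) (hβ0 : 0 < β) {n : ℤ} (hn : 1 ≤ n) : 2 ≤ β ^ (2 * n) := by
  have hβ1 : (7 : ℝ) / 5 ≤ β := by nlinarith
  have hβ1' : 1 ≤ β := by linarith
  calc (2 : ℝ) ≤ β ^ (2 : ℤ) := by
        rw [show (2 : ℤ) = ((2 : ℕ) : ℤ) by norm_num, zpow_natCast]; exact hβ
    _ ≤ β ^ (2 * n) := by
        apply zpow_le_zpow_right₀ hβ1'
        omega

/-- one factor: the simple bounds -/
lemma factor_bounds (hβ : 2 ≤ β ^ 2) (hβ0 : 0 < β) {A : ℝ} {w n : ℤ} (hA : 1 ≤ A) (hAw : A ≤ β ^ w)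
    (hn : 1 ≤ n) : 1 ≤ A * (β ^ (2 * n) - 1) ∧ A * (β ^ (2 * n) - 1) ≤ β ^ (w + 2 * n) := by
  have h2 := two_le_zpow hβ hβ0 hn
  constructor
  · nlinarith
  · calc A * (β ^ (2 * n) - 1) ≤ β ^ w * β ^ (2 * n) := by
          gcongr
          · linarith
          · linarith
      _ = β ^ (w + 2 * n) := by rw [← zpow_add₀ hβ0.ne']

/-- the two extra factors -/
lemma two_factors (hβ : 2 ≤ β ^ 2) (hβ0 : 0 < β) (hσ : ‖σ‖ = 1) {A1 : ℝ} {w1 : ℤ} {C1 : ℂ}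
    (hadm1 : Adm β σ A1 w1 C1) (hA11 : 1 ≤ A1) (hA1w : A1 ≤ β ^ w1) (hC1 : ‖C1‖ ≤ 1 / 10)
    {μ : ℝ} (hμ : ∀ j : ℤ, dz (A1 * β ^ j) ≤ 1 / 2 - μ) {h2 : ℕ} (hh2 : 1 ≤ h2)
    {ε : ℝ} (hε : ‖σ ^ h2 - 1‖ ≤ ε) (hε1 : ε ≤ 1) :
    ∃ A3 : ℝ, ∃ C3 : ℂ, Adm β σ A3 (w1 + 12 * h2) C3 ∧ 1 ≤ A3 ∧ A3 ≤ β ^ (w1 + 12 * (h2 : ℤ)) ∧
      ‖C3‖ ≤ 2 * ε ^ 2 ∧
      ∀ j : ℤ, dz (A3 * β ^ j) ≤ 1 / 2 - μ + (2 * β ^ (w1 - h2) + 5 * ε) := by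
  have hβ1 : (7 : ℝ) / 5 ≤ β := by nlinarith
  have hβ1' : 1 ≤ β := by linarith
  have hσ0 : σ ≠ 0 := by
    intro h0; rw [h0, norm_zero] at hσ; norm_num at hσ
  have hε0 : 0 ≤ ε := (norm_nonneg _).trans hε
  -- second factor
  have hadm2 := adm_step hβ0 hσ0 hadm1 h2
  obtain ⟨hA21, hA2w⟩ := factor_bounds hβ hβ0 hA11 hA1w (n := h2) (by omega)
  have hmarg2 := marg_step hβ1' hσ hadm1 hA11 hA1w hμ h2
  have hC2n : ‖C1 * (σ ^ (2 * (h2 : ℤ)) - 1)‖ ≤ ε / 5 := by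
    rw [norm_mul]
    have := norm_zpow_two_mul_le hσ h2
    calc ‖C1‖ * ‖σ ^ (2 * (h2 : ℤ)) - 1‖ ≤ 1 / 10 * (2 * ε) := by
          apply mul_le_mul hC1 (by linarith) (norm_nonneg _) (by norm_num)
      _ = ε / 5 := by ring
  generalize A1 * (β ^ (2 * (h2 : ℤ)) - 1) = A2 at *
  generalize C1 * (σ ^ (2 * (h2 : ℤ)) - 1) = C2 at *
  -- third factor
  have hadm3 := adm_step hβ0 hσ0 hadm2 (5 * (h2 : ℤ))
  obtain ⟨hA31, hA3w⟩ := factor_bounds hβ hβ0 hA21 hA2w (n := 5 * h2) (by omega)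
  have hmarg3 := marg_step hβ1' hσ hadm2 hA21 hA2w hmarg2 (5 * (h2 : ℤ))
  have hC3n : ‖C2 * (σ ^ (2 * (5 * (h2 : ℤ))) - 1)‖ ≤ 2 * ε ^ 2 := by
    rw [norm_mul]
    have h10 := norm_pow_mul_sub_one_le hσ h2 10
    have e10 : σ ^ (2 * (5 * (h2 : ℤ))) = σ ^ (h2 * 10) := by
      rw [show 2 * (5 * (h2 : ℤ)) = ((h2 * 10 : ℕ) : ℤ) by push_cast; ring]
      exact zpow_natCast σ (h2 * 10)
    rw [e10]
    push_cast at h10
    calc ‖C2‖ * ‖σ ^ (h2 * 10) - 1‖ ≤ ε / 5 * (10 * ε) := by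
          apply mul_le_mul hC2n (by linarith) (norm_nonneg _) (by positivity)
      _ = 2 * ε ^ 2 := by ring
  have ew : w1 + 2 * (h2 : ℤ) + 2 * (5 * (h2 : ℤ)) = w1 + 12 * (h2 : ℤ) := by ring
  rw [ew] at hadm3 hA3w
  refine ⟨_, _, hadm3, hA31, hA3w, hC3n, ?_⟩
  intro j
  refine (hmarg3 j).trans ?_
  have e1 : A1 * β ^ (-(h2 : ℤ)) ≤ β ^ (w1 - h2) := by
    calc A1 * β ^ (-(h2 : ℤ)) ≤ β ^ w1 * β ^ (-(h2 : ℤ)) := by gcongr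
      _ = β ^ (w1 - h2) := by rw [← zpow_add₀ hβ0.ne']; congr 1
  have e2 : A2 * β ^ (-(5 * (h2 : ℤ))) ≤ β ^ (w1 - h2) := by
    calc A2 * β ^ (-(5 * (h2 : ℤ))) ≤ β ^ (w1 + 2 * (h2 : ℤ)) * β ^ (-(5 * (h2 : ℤ))) := by gcongr
      _ = β ^ (w1 - 3 * h2) := by rw [← zpow_add₀ hβ0.ne']; congr 1; ring
      _ ≤ β ^ (w1 - h2) := by
          apply zpow_le_zpow_right₀ hβ1'
          omega
  have e4 : ε ^ 2 ≤ ε := by nlinarith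
  linarith

/-- numerical part -/
lemma numerics {N w1 μ t ε : ℝ} (hN0 : 0 ≤ N) (hμ0 : 0 < μ)
    (ht1 : 98 * (N + 1) ^ 2 ≤ t) (ht2 : w1 + 12 * N ≤ t) (ht3 : Real.exp 10 ≤ t)
    (ht4 : 8 * (35 * (N + 1) + 4) / μ ≤ t) (hε0 : 0 ≤ ε) (hεb : ε ≤ 7 * (N + 1) / t ^ 8) :
    ε ≤ 1 ∧ 120 ≤ 12 * Real.log t ∧ 2 * ε ^ 2 ≤ Real.exp (-(12 * Real.log t)) ∧
      (∀ h : ℝ, h ≤ N + t ^ 8 → w1 + 12 * h ≤ Real.exp (3 / 4 * (12 * Real.log t))) ∧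
      5 * ε + 4 * Real.exp (-(12 * Real.log t)) ≤ μ / 8 := by
  have ht98 : (98 : ℝ) ≤ t := by nlinarith
  have ht0 : (0 : ℝ) < t := by linarith
  have ht1' : (1 : ℝ) ≤ t := by linarith
  have htk : ∀ k : ℕ, 1 ≤ k → t ≤ t ^ k := by
    intro k hk
    calc t = t ^ 1 := (pow_one _).symm
      _ ≤ t ^ k := pow_le_pow_right₀ ht1' hk
  have hεt : ε ≤ 7 * (N + 1) / t := by
    refine hεb.trans ?_
    apply div_le_div_of_nonneg_left (by positivity) ht0 (htk 8 (by norm_num))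
  have hε1 : ε ≤ 1 := by
    refine hεt.trans ?_
    rw [div_le_one ht0]
    nlinarith
  have hexpL : Real.exp (-(12 * Real.log t)) = (t ^ 12)⁻¹ := by
    rw [Real.exp_neg]
    have : Real.exp (((12 : ℕ) : ℝ) * Real.log t) = t ^ 12 := by
      rw [Real.exp_nat_mul, Real.exp_log ht0]
    push_cast at this
    rw [this]
  have hexpw : Real.exp (3 / 4 * (12 * Real.log t)) = t ^ 9 := by
    have : Real.exp (((9 : ℕ) : ℝ) * Real.log t) = t ^ 9 := by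
      rw [Real.exp_nat_mul, Real.exp_log ht0]
    push_cast at this
    rw [← this]
    congr 1; ring
  refine ⟨hε1, ?_, ?_, ?_, ?_⟩
  · have : 10 ≤ Real.log t := by
      rw [Real.le_log_iff_exp_le ht0]; exact ht3
    linarith
  · rw [hexpL]
    have h1 : ε ^ 2 ≤ (7 * (N + 1) / t ^ 8) ^ 2 := pow_le_pow_left₀ hε0 hεb 2
    have h2 : 2 * (7 * (N + 1) / t ^ 8) ^ 2 = 98 * (N + 1) ^ 2 / t ^ 16 := by
      rw [div_pow]; ring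
    calc 2 * ε ^ 2 ≤ 98 * (N + 1) ^ 2 / t ^ 16 := by rw [← h2]; linarith
      _ ≤ t / t ^ 16 := by gcongr
      _ = (t ^ 15)⁻¹ := by field_simp
      _ ≤ (t ^ 12)⁻¹ := by
          apply inv_anti₀ (by positivity)
          exact pow_le_pow_right₀ ht1' (by norm_num)
  · intro h hh
    rw [hexpw]
    have h3 := htk 8 (by norm_num)
    have h4 : t ^ 9 = t * t ^ 8 := by ring
    have h5 : (13 : ℝ) * t ^ 8 ≤ t * t ^ 8 := by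
      apply mul_le_mul_of_nonneg_right (by linarith) (by positivity)
    rw [h4]
    linarith
  · have e5 : Real.exp (-(12 * Real.log t)) ≤ 1 / t := by
      rw [hexpL, one_div]
      exact inv_anti₀ ht0 (htk 12 (by norm_num))
    have e6 : (35 * (N + 1) + 4) / t ≤ μ / 8 := by
      rw [div_le_iff₀ hμ0] at ht4
      rw [div_le_iff₀ ht0]
      linarith
    have e7 : 5 * (7 * (N + 1) / t) + 4 * (1 / t) = (35 * (N + 1) + 4) / t := by ring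
    linarith

lemma exists_base_aux (hβ : 2 ≤ β ^ 2) (hβ0 : 0 < β) (hσ : ‖σ‖ = 1) {A1 : ℝ} {w1 : ℤ} {C1 : ℂ}
    (hadm1 : Adm β σ A1 w1 C1) (hA11 : 1 ≤ A1) (hA1w : A1 ≤ β ^ w1) (hC1 : ‖C1‖ ≤ 1 / 10)
    (hw1 : 1 ≤ w1)
    {μ : ℝ} (hμ0 : 0 < μ) (hμ : ∀ j : ℤ, dz (A1 * β ^ j) ≤ 1 / 2 - μ) :
    ∃ L S A : ℝ, ∃ w : ℤ, ∃ C : ℂ, 120 ≤ L ∧ St β σ (μ / 2) L S A w C := by
  have hβ1 : (7 : ℝ) / 5 ≤ β := by nlinarith
  have hβ1' : 1 ≤ β := by linarith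
  obtain ⟨N0, hN00⟩ := exists_pow_small hβ hβ0 w1 (e := μ / 24) (by positivity)
  obtain ⟨N, hNdef⟩ : ∃ N : ℕ, N = N0 + 1 := ⟨_, rfl⟩
  have hN : ∀ n : ℤ, (N : ℤ) ≤ n → β ^ (w1 - n) ≤ μ / 24 := by
    intro n hn
    apply hN00
    omega
  obtain ⟨t, ht⟩ := exists_nat_ge (max (max (98 * ((N : ℝ) + 1) ^ 2) ((w1 : ℝ) + 12 * N))
    (max (Real.exp 10) (8 * (35 * ((N : ℝ) + 1) + 4) / μ)))
  have ht1 : 98 * ((N : ℝ) + 1) ^ 2 ≤ t := (le_max_left _ _).trans ((le_max_left _ _).trans ht)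
  have ht2 : (w1 : ℝ) + 12 * N ≤ t := (le_max_right _ _).trans ((le_max_left _ _).trans ht)
  have ht3 : Real.exp 10 ≤ t := (le_max_left _ _).trans ((le_max_right _ _).trans ht)
  have ht4 : 8 * (35 * ((N : ℝ) + 1) + 4) / μ ≤ t :=
    (le_max_right _ _).trans ((le_max_right _ _).trans ht)
  have hN0 : (0 : ℝ) ≤ N := by positivity
  have ht0 : (0 : ℝ) < t := by nlinarith
  have ht0' : 0 < t := by exact_mod_cast ht0
  have hQ0 : 0 < t ^ 8 := by positivity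
  obtain ⟨q, h2, hq1, hqQ, hNh, hhN, hbd⟩ := exists_exponent hσ hQ0 N
  have hh2 : 1 ≤ h2 := by omega
  have hεb : ‖σ ^ h2 - 1‖ ≤ 7 * (N + 1) / (t : ℝ) ^ 8 := by
    refine hbd.trans ?_
    have : (N : ℝ) / q + 1 ≤ N + 1 := by
      have : (N : ℝ) / q ≤ N := by
        apply div_le_self hN0
        exact_mod_cast hq1
      linarith
    push_cast
    calc ((N : ℝ) / q + 1) * (7 / (t : ℝ) ^ 8) ≤ (N + 1) * (7 / (t : ℝ) ^ 8) := by gcongr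
      _ = _ := by ring
  obtain ⟨hε1, hL, hCL, hwL, hsmall⟩ := numerics hN0 hμ0 ht1 ht2 ht3 ht4 (norm_nonneg _) hεb
  obtain ⟨A3, C3, hadm3, hA31, hA3w, hC3, hmarg⟩ :=
    two_factors hβ hβ0 hσ hadm1 hA11 hA1w hC1 hμ hh2 (le_refl _) hε1
  obtain ⟨S, hS⟩ := sumB_exists hβ hβ0 (A := A3) (by linarith) (w := w1 + 12 * h2) hA3w (by omega)
    (K := Real.exp (2 * (12 * Real.log t))) (by positivity)
  refine ⟨12 * Real.log t, S, A3, w1 + 12 * h2, C3, hL, ?_⟩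
  refine ⟨hadm3, hA31, hA3w, by omega, ?_, hC3.trans hCL, ?_, hS⟩
  · push_cast
    apply hwL
    have : h2 ≤ N + t ^ 8 := by omega
    exact_mod_cast this
  · intro j
    refine (hmarg j).trans ?_
    have e1 : β ^ (w1 - h2) ≤ μ / 24 := hN _ (by omega)
    have e3 : β ^ (-(w1 + 12 * (h2 : ℤ))) ≤ μ / 24 := by
      refine le_trans ?_ e1
      apply zpow_le_zpow_right₀ hβ1'
      omega
    linarith

lemma exists_base (hβ : 2 ≤ β ^ 2) (hβ0 : 0 < β) (hσ : ‖σ‖ = 1) (hi : IsIntegral ℤ β)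
    (hi' : IsIntegral ℤ β⁻¹)
    (htr : ∀ j : ℤ, ∃ m : ℤ, β ^ j + β ^ (-j) + 2 * (σ ^ j).re = m) :
    ∃ c L S A : ℝ, ∃ w : ℤ, ∃ C : ℂ, 0 < c ∧ c ≤ 1 / 4 ∧ 120 ≤ L ∧ St β σ c L S A w C := by
  have hσ0 : σ ≠ 0 := by
    intro h0; rw [h0, norm_zero] at hσ; norm_num at hσ
  have hadm0 : Adm β σ 1 0 1 := by
    refine ⟨1, Or.inl rfl, ?_⟩
    intro j
    obtain ⟨m, hm⟩ := htr j
    refine ⟨m, ?_⟩
    rw [← hm]
    simp
  obtain ⟨h1, hh1, _, hb1⟩ := exists_good hσ (Q := 140) (by norm_num)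
  have hC1 : ‖σ ^ (2 * (h1 : ℤ)) - 1‖ ≤ 1 / 10 := by
    refine (norm_zpow_two_mul_le hσ h1).trans ?_
    norm_num at hb1
    linarith
  have hadm1 := adm_step hβ0 hσ0 hadm0 h1
  rw [one_mul, one_mul, zero_add] at hadm1
  obtain ⟨μ, hμ0, hμ⟩ := margin_exists hβ hβ0 hσ hi hi' hh1 hadm1 hC1
  have hpow := two_le_zpow hβ hβ0 (n := h1) (by omega)
  have hμ1 : μ ≤ 1 / 2 := by
    have h3 := hμ 0
    have h4 := dz_nonneg ((β ^ (2 * (h1 : ℤ)) - 1) * β ^ (0 : ℤ))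
    linarith
  obtain ⟨L, S, A, w, C, hL, hst⟩ := exists_base_aux hβ hβ0 hσ hadm1 (by linarith) (by linarith)
    hC1 (by omega) hμ0 hμ
  exact ⟨μ / 2, L, S, A, w, C, by positivity, by linarith, hL, hst⟩

end Vale.P105
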