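import Mathlib

/-!
# Bernoulli convolutions: definitions used in the statement
-/

namespace Vale.P105

open MeasureTheory

/-- The fair coin on `Bool`: `true` and `false` have probability `1/2` each. -/
noncomputable def coin : Measure Bool :=
  (2⁻¹ : ENNReal) • Measure.dirac true + (2⁻¹ : ENNReal) • Measure.dirac false

instance isProbabilityMeasure_coin : IsProbabilityMeasure coin where
  measure_univ := by
    simp [coin, ENNReal.inv_two_add_inv_two]

/-- The sign `+1` or `-1` attached to a coin flip. -/
def sgn (b : Bool) : ℝ := if b then 1 else -1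

/-- The Bernoulli convolution `ν_l`: the law of `∑ n, ε_n l^n` for independent fair signs `ε_n`
(the signs are the coordinates of the infinite product of fair coins). -/
noncomputable def bernoulliConv (l : ℝ) : Measure ℝ :=
  (Measure.infinitePi (fun _ : ℕ => coin)).map (fun ω : ℕ → Bool => ∑' n : ℕ, sgn (ω n) * l ^ n)

/-- A Pisot number: a real algebraic integer `> 1` all of whose other Galois conjugates (complex
roots of its minimal polynomial over `ℚ`) have modulus `< 1`. -/
def IsPisot (b : ℝ) : Prop :=
  1 < b ∧ IsIntegral ℤ b ∧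
    ∀ z : ℂ, Polynomial.aeval z (minpoly ℚ b) = 0 → z ≠ (b : ℂ) → ‖z‖ < 1

/-- A Salem number: a real algebraic integer `> 1` all of whose other Galois conjugates have
modulus `≤ 1`, with at least one conjugate of modulus exactly `1`. -/
def IsSalem (b : ℝ) : Prop :=
  1 < b ∧ IsIntegral ℤ b ∧
    (∀ z : ℂ, Polynomial.aeval z (minpoly ℚ b) = 0 → z ≠ (b : ℂ) → ‖z‖ ≤ 1) ∧
    ∃ z : ℂ, Polynomial.aeval z (minpoly ℚ b) = 0 ∧ ‖z‖ = 1

end Vale.P105
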