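import Vale.Agent.P105.Salem

namespace Vale.P105

open Polynomial MeasureTheory

/-- The quartic `X⁴ - X³ - X² - X + 1`. -/
noncomputable def q4 : ℤ[X] :=
  (Polynomial.X : ℤ[X]) ^ 4 - Polynomial.X ^ 3 - Polynomial.X ^ 2 - Polynomial.X + 1

lemma q4_natDegree : q4.natDegree = 4 := by
  unfold q4; compute_degree!

lemma q4_monic : q4.Monic := by
  unfold q4; monicity!

lemma q4_eval (x : ℤ) : q4.eval x = x ^ 4 - x ^ 3 - x ^ 2 - x + 1 := by
  simp [q4]

lemma q4_irreducible : Irreducible q4 := by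
  rw [q4_monic.irreducible_iff_lt_natDegree_lt (by
    intro h
    have := congrArg natDegree h
    rw [q4_natDegree, natDegree_one] at this
    norm_num at this)]
  intro g hg hdeg hdvd
  rw [q4_natDegree] at hdeg
  obtain ⟨f, hf⟩ := hdvd
  have hfm : f.Monic := by
    have h1 : (g * f).Monic := hf ▸ q4_monic
    exact hg.of_mul_monic_left h1
  have hdf : g.natDegree + f.natDegree = 4 := by
    rw [← hg.natDegree_mul hfm, ← hf, q4_natDegree]
  have e0 : g.eval 0 * f.eval 0 = 1 := by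
    rw [← eval_mul, ← hf, q4_eval]; norm_num
  have e1 : g.eval 1 * f.eval 1 = -1 := by
    rw [← eval_mul, ← hf, q4_eval]; norm_num
  have e2 : g.eval (-1) * f.eval (-1) = 3 := by
    rw [← eval_mul, ← hf, q4_eval]; norm_num
  rw [Finset.mem_Ioc] at hdeg
  have hcases : g.natDegree = 1 ∨ g.natDegree = 2 := by omega
  rcases hcases with h | h
  · have hg1 : g.coeff 1 = 1 := by have := hg.coeff_natDegree; rwa [h] at this
    have hgx : ∀ x : ℤ, g.eval x = g.coeff 0 + x := by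
      intro x
      rw [eval_eq_sum_range, h]
      simp [Finset.sum_range_succ, hg1]
    rw [hgx] at e0 e1
    rw [add_zero] at e0
    have : g.coeff 0 = 1 ∨ g.coeff 0 = -1 := by
      apply Int.isUnit_iff.mp
      exact IsUnit.of_mul_eq_one _ e0
    rcases this with h2 | h2
    · rw [h2] at e1; omega
    · rw [h2] at e1; omega
  · have hf2 : f.natDegree = 2 := by omega
    have hg1 : g.coeff 2 = 1 := by have := hg.coeff_natDegree; rwa [h] at this
    have hf1 : f.coeff 2 = 1 := by have := hfm.coeff_natDegree; rwa [hf2] at this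
    have hgx : ∀ x : ℤ, g.eval x = g.coeff 0 + g.coeff 1 * x + x ^ 2 := by
      intro x
      rw [eval_eq_sum_range, h]
      simp [Finset.sum_range_succ, hg1]
    have hfx : ∀ x : ℤ, f.eval x = f.coeff 0 + f.coeff 1 * x + x ^ 2 := by
      intro x
      rw [eval_eq_sum_range, hf2]
      simp [Finset.sum_range_succ, hf1]
    rw [hgx, hfx] at e0 e1 e2
    generalize g.coeff 0 = s at *
    generalize g.coeff 1 = r at *
    generalize f.coeff 0 = u at *
    generalize f.coeff 1 = p at *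
    have hsu : s * u = 1 := by linarith
    have : s = 1 ∧ u = 1 ∨ s = -1 ∧ u = -1 := Int.mul_eq_one_iff_eq_one_or_neg_one.mp hsu
    rcases this with ⟨rfl, rfl⟩ | ⟨rfl, rfl⟩
    · have h3 : (2 + r) * (2 + p) = -1 := by linarith
      have h4 : (2 - r) * (2 - p) = 3 := by linarith
      have h5 := Int.mul_eq_neg_one_iff_eq_one_or_neg_one.mp h3
      rcases h5 with ⟨h6, h7⟩ | ⟨h6, h7⟩
      · have : r = -1 := by omega
        have : p = -3 := by omega
        subst r p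
        norm_num at h4
      · have : r = -3 := by omega
        have : p = -1 := by omega
        subst r p
        norm_num at h4
    · have h3 : r * p = -1 := by linarith
      have h4 : r * p = 3 := by linarith
      linarith

lemma numbers : ∃ t t' β E : ℝ, t + t' = 1 ∧ t * t' = -3 ∧ 1 < β ∧ β < 2 ∧
    β ^ 2 - t * β + 1 = 0 ∧ -2 < t' ∧ t' < 0 ∧ E ^ 2 = 1 - t' ^ 2 / 4 := by
  obtain ⟨r, hr0, hr2⟩ : ∃ r : ℝ, 0 ≤ r ∧ r ^ 2 = 13 :=
    ⟨Real.sqrt 13, Real.sqrt_nonneg _, Real.sq_sqrt (by norm_num)⟩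
  have hr3 : 3.6 < r := by nlinarith
  have hr4 : r < 3.61 := by nlinarith
  obtain ⟨D, hD0, hD2⟩ : ∃ D : ℝ, 0 ≤ D ∧ D ^ 2 = ((1 + r) / 2) ^ 2 - 4 :=
    ⟨Real.sqrt (((1 + r) / 2) ^ 2 - 4), Real.sqrt_nonneg _, Real.sq_sqrt (by nlinarith)⟩
  have hD1 : 1 < D := by nlinarith
  have hD3 : D < 1.2 := by nlinarith
  obtain ⟨E, hE⟩ : ∃ E : ℝ, E ^ 2 = 1 - ((1 - r) / 2) ^ 2 / 4 :=
    ⟨Real.sqrt (1 - ((1 - r) / 2) ^ 2 / 4), Real.sq_sqrt (by nlinarith)⟩
  refine ⟨(1 + r) / 2, (1 - r) / 2, ((1 + r) / 2 + D) / 2, E, by ring, by nlinarith, by linarith,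
    by linarith, by nlinarith, by linarith, by linarith, hE⟩

lemma norm_of_quad {t' : ℝ} (h1 : -2 < t') (h2 : t' < 0) {x : ℂ}
    (hx : x ^ 2 - (t' : ℂ) * x + 1 = 0) : ‖x‖ = 1 := by
  have hre := congrArg Complex.re hx
  have him := congrArg Complex.im hx
  simp [pow_two] at hre him
  have h3 : x.im * (2 * x.re - t') = 0 := by linarith
  have h4 : Complex.normSq x = 1 := by
    rw [Complex.normSq_apply]
    rcases mul_eq_zero.mp h3 with h | h
    · exfalso
      rw [h] at hre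
      nlinarith [sq_nonneg (2 * x.re - t')]
    · have h3 : t' = 2 * x.re := by linarith
      rw [h3] at hre
      nlinarith
  rw [Complex.normSq_eq_norm_sq] at h4
  have h5 := norm_nonneg x
  nlinarith

lemma norm_lt_of_quad {t β : ℝ} (hβ1 : 1 < β) (hquad : β ^ 2 - t * β + 1 = 0) {x : ℂ}
    (hx : x ^ 2 - (t : ℂ) * x + 1 = 0) (hne : x ≠ (β : ℂ)) : ‖x‖ < 1 := by
  have hβ0 : 0 < β := by linarith
  have h1 : x ^ 2 - (t : ℂ) * x + 1 = (x - β) * (x - ((β⁻¹ : ℝ) : ℂ)) := by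
    have h2 : t = β + β⁻¹ := by
      field_simp
      linarith
    have h3 : (β : ℂ) * ((β⁻¹ : ℝ) : ℂ) = 1 := by
      rw [← Complex.ofReal_mul, mul_inv_cancel₀ hβ0.ne', Complex.ofReal_one]
    have h4 : (t : ℂ) = (β : ℂ) + ((β⁻¹ : ℝ) : ℂ) := by
      rw [← Complex.ofReal_add, ← h2]
    rw [h4]
    linear_combination (-1 : ℂ) * h3
  rw [h1] at hx
  rcases mul_eq_zero.mp hx with h | h
  · exact absurd (sub_eq_zero.mp h) hne
  · rw [sub_eq_zero.mp h, Complex.norm_real, Real.norm_of_nonneg (by positivity)]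
    exact inv_lt_one_of_one_lt₀ hβ1

lemma fac4 {K : Type*} [CommRing K] {t t' : K} (h1 : t + t' = 1) (h2 : t * t' = -3) (x : K) :
    x ^ 4 - x ^ 3 - x ^ 2 - x + 1 = (x ^ 2 - t * x + 1) * (x ^ 2 - t' * x + 1) := by
  linear_combination (x ^ 3 + x) * h1 - x ^ 2 * h2

lemma aeval_q4 (K : Type) [Field K] [Algebra ℚ K] (x : K) :
    aeval x (q4.map (algebraMap ℤ ℚ)) = x ^ 4 - x ^ 3 - x ^ 2 - x + 1 := by
  simp [q4]

lemma minpoly_eq_q4 {β : ℝ} (hqβ : β ^ 4 - β ^ 3 - β ^ 2 - β + 1 = 0) :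
    minpoly ℚ β = q4.map (algebraMap ℤ ℚ) := by
  have hirrQ : Irreducible (q4.map (algebraMap ℤ ℚ)) :=
    (Polynomial.Monic.irreducible_iff_irreducible_map_fraction_map q4_monic).mp q4_irreducible
  symm
  apply minpoly.eq_of_irreducible_of_monic hirrQ
  · rw [aeval_q4 ℝ]; exact hqβ
  · exact q4_monic.map _

theorem exists_salem4 : ∃ β : ℝ, 1 < β ∧ β < 2 ∧ IsSalem β ∧ ¬ IsPisot β ∧
    (minpoly ℚ β).natDegree = 4 ∧ β ^ 4 - β ^ 3 - β ^ 2 - β + 1 = 0 := by
  obtain ⟨t, t', β, E, htp, htt, hβ1, hβ2, hquad, ht'1, ht'2, hE⟩ := numbers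
  have hβ0 : 0 < β := by linarith
  have htpC : (t : ℂ) + t' = 1 := by rw [← Complex.ofReal_add, htp, Complex.ofReal_one]
  have httC : (t : ℂ) * t' = -3 := by
    rw [← Complex.ofReal_mul, htt]; push_cast; ring
  have hqβ : β ^ 4 - β ^ 3 - β ^ 2 - β + 1 = 0 := by
    rw [fac4 htp htt, hquad, zero_mul]
  have hmin := minpoly_eq_q4 hqβ
  have hdeg : (minpoly ℚ β).natDegree = 4 := by
    rw [hmin, q4_monic.natDegree_map, q4_natDegree]
  have hint : IsIntegral ℤ β := by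
    refine ⟨q4, q4_monic, ?_⟩
    simp [q4, hqβ]
  have hσ : ((⟨t' / 2, E⟩ : ℂ)) ^ 2 - (t' : ℂ) * (⟨t' / 2, E⟩ : ℂ) + 1 = 0 := by
    apply Complex.ext
    · simp [pow_two]
      nlinarith
    · simp [pow_two]
      ring
  have hroot : aeval (⟨t' / 2, E⟩ : ℂ) (minpoly ℚ β) = 0 := by
    rw [hmin, aeval_q4 ℂ, fac4 htpC httC, hσ, mul_zero]
  have hnorm := norm_of_quad ht'1 ht'2 hσ
  refine ⟨β, hβ1, hβ2, ⟨hβ1, hint, ?_, _, hroot, hnorm⟩, ?_, hdeg, hqβ⟩
  · intro z hz hne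
    rw [hmin, aeval_q4 ℂ, fac4 htpC httC] at hz
    rcases mul_eq_zero.mp hz with h | h
    · exact (norm_lt_of_quad hβ1 hquad h hne).le
    · exact (norm_of_quad ht'1 ht'2 h).le
  · intro hP
    have h1 := hP.2.2 _ hroot (by
      intro h
      rw [h, Complex.norm_real, Real.norm_of_nonneg hβ0.le] at hnorm
      linarith)
    linarith

end Vale.P105
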