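import Vale.Agent.P105.Base2

namespace Vale.P105

open Finset

/-- partial products of the Fourier transform of the Bernoulli convolution -/
noncomputable def cosProd (l ξ : ℝ) (M : ℕ) : ℝ := ∏ n ∈ range M, Real.cos (ξ * l ^ n)

variable {β : ℝ} {σ : ℂ}

lemma freq_eq (hβ0 : 0 < β) (A : ℝ) (k : ℤ) (n : ℕ) :
    Real.pi * (A * β ^ k) * β⁻¹ ^ n = Real.pi * (A * β ^ (k - n)) := by
  rw [zpow_sub₀ hβ0.ne', zpow_natCast, inv_pow]
  field_simp

section

variable {c L S A : ℝ} {w : ℤ} {C : ℂ}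

lemma margin_c (hβ0 : 0 < β) (hst : St β σ c L S A w C) (j : ℤ) :
    dz (A * β ^ j) ≤ 1 / 2 - c := by
  have h1 := hst.marg j
  have h2 : 0 < β ^ (-w) := by positivity
  have h3 := Real.exp_pos (-L)
  linarith

lemma cosProd_lower (hβ0 : 0 < β) (hc : 0 < c) (hst : St β σ c L S A w C) {k : ℤ}
    (hk : (k : ℝ) ≤ Real.exp (2 * L)) (M : ℕ) :
    Real.exp (-(Real.pi ^ 2 / (4 * c) * S)) ≤ |cosProd β⁻¹ (Real.pi * (A * β ^ k)) M| := by
  unfold cosProd
  rw [Finset.abs_prod]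
  have h1 : ∏ n ∈ range M, Real.exp (-(Real.pi ^ 2 / (4 * c) * dz (A * β ^ (k - (n : ℤ))) ^ 2)) ≤
      ∏ n ∈ range M, |Real.cos (Real.pi * (A * β ^ k) * β⁻¹ ^ n)| := by
    apply Finset.prod_le_prod
    · intro i _; positivity
    · intro n _
      rw [freq_eq hβ0]
      exact exp_le_abs_cos hc (margin_c hβ0 hst _)
  refine le_trans ?_ h1
  rw [← Real.exp_sum, Real.exp_le_exp, Finset.sum_neg_distrib, neg_le_neg_iff, ← Finset.mul_sum]
  gcongr
  have h2 : ∑ n ∈ range M, dz (A * β ^ (k - (n : ℤ))) ^ 2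
      = ∑ j ∈ (range M).image (fun n : ℕ => k - (n : ℤ)), dz (A * β ^ j) ^ 2 := by
    rw [Finset.sum_image]
    intro x _ y _ hxy
    simp only at hxy
    omega
  rw [h2]
  apply hst.sum
  intro j hj
  rw [Finset.mem_image] at hj
  obtain ⟨n, _, rfl⟩ := hj
  push_cast
  have : (0 : ℝ) ≤ n := by positivity
  linarith

lemma dz_tail (hβ0 : 0 < β) (hσ : ‖σ‖ = 1) (hst : St β σ c L S A w C) (m : ℤ) :
    dz (A * β ^ m) ≤ β ^ (-m) + 2 * Real.exp (-L) := by
  obtain ⟨s, hs, h⟩ := hst.adm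
  obtain ⟨z, hz⟩ := h m
  have hA0 : 0 ≤ A := by linarith [hst.hA1]
  have key : A * β ^ m = 0 + (-(s * (A * β ^ (-w - m))) - 2 * (C * σ ^ m).re) + (z : ℝ) := by
    rw [← hz]; ring
  have h3 := dz_le_of_int key
  have h00 : dz 0 = 0 := by simp [dz]
  rw [h00, zero_add] at h3
  refine h3.trans ((abs_sub _ _).trans ?_)
  rw [abs_neg]
  have h4 : |s * (A * β ^ (-w - m))| ≤ β ^ (-m) := by
    rw [abs_mul]
    have : |s| = 1 := by rcases hs with rfl | rfl <;> norm_num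
    rw [this, one_mul, abs_of_nonneg (by positivity)]
    calc A * β ^ (-w - m) ≤ β ^ w * β ^ (-w - m) := by gcongr; exact hst.hAw
      _ = β ^ (-m) := by rw [← zpow_add₀ hβ0.ne']; congr 1; ring
  have h5 : |2 * (C * σ ^ m).re| ≤ 2 * Real.exp (-L) := by
    rw [abs_mul, abs_of_pos (by norm_num : (0:ℝ) < 2)]
    have : |(C * σ ^ m).re| ≤ ‖C‖ := by
      refine (Complex.abs_re_le_norm _).trans ?_
      rw [norm_mul _ (σ ^ m), norm_zpow, hσ, one_zpow, mul_one]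
    linarith [hst.hC]
  linarith

/-- The cross correlation estimate. -/
lemma cross_bound (hβ : 2 ≤ β ^ 2) (hβ0 : 0 < β) (hσ : ‖σ‖ = 1) (hst : St β σ c L S A w C)
    {h p : ℤ} (hp0 : 0 ≤ p) (hph : 2 * p ≤ h) {K : ℝ} (hK0 : 0 ≤ K) (hK : K ≤ Real.exp (2 * L))
    (F : Finset ℤ) (hF : ∀ j ∈ F, (j : ℝ) ≤ K) :
    ∑ j ∈ F, dz (A * β ^ (j + h)) * dz (A * β ^ j) ≤
      4 * β ^ (w - p) + 4 * β ^ (-p) + 2 * Real.exp (-L) * Real.sqrt ((K + p + 1) * S) := by
  have hβ1 : (7 : ℝ) / 5 ≤ β := by nlinarith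
  have hβ1' : 1 ≤ β := by linarith
  have hA0 : 0 ≤ A := by linarith [hst.hA1]
  rw [← Finset.sum_filter_add_sum_filter_not F (fun j => -p ≤ j)]
  set F1 := F.filter (fun j => -p ≤ j) with hF1
  set F2 := F.filter (fun j => ¬ (-p ≤ j)) with hF2
  have hF1mem : ∀ j ∈ F1, -p ≤ j ∧ (j : ℝ) ≤ K := by
    intro j hj
    rw [hF1, Finset.mem_filter] at hj
    exact ⟨hj.2, hF j hj.1⟩
  have hF2mem : ∀ j ∈ F2, j < -p := by
    intro j hj
    rw [hF2, Finset.mem_filter] at hj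
    omega
  have part2 : ∑ j ∈ F2, dz (A * β ^ (j + h)) * dz (A * β ^ j) ≤ 4 * β ^ (w - p) := by
    have b : ∀ j ∈ F2, dz (A * β ^ (j + h)) * dz (A * β ^ j) ≤ β ^ (w - p) * β ^ (j - (-p)) := by
      intro j hj
      have h1 := dz_nonneg (A * β ^ (j + h))
      have h2 := dz_le_half (A * β ^ (j + h))
      have h3 := dz_le_abs (A * β ^ j)
      rw [abs_of_nonneg (by positivity)] at h3
      have h4 : A * β ^ j ≤ β ^ (w - p) * β ^ (j - (-p)) := by
        calc A * β ^ j ≤ β ^ w * β ^ j := by gcongr; exact hst.hAw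
          _ = β ^ (w - p) * β ^ (j - (-p)) := by
              rw [← zpow_add₀ hβ0.ne', ← zpow_add₀ hβ0.ne']; congr 1; ring
      have h5 := dz_nonneg (A * β ^ j)
      have h6 : dz (A * β ^ (j + h)) * dz (A * β ^ j) ≤ 1 * dz (A * β ^ j) := by
        apply mul_le_mul_of_nonneg_right (by linarith) h5
      linarith
    refine (Finset.sum_le_sum b).trans ?_
    rw [← Finset.mul_sum, mul_comm 4]
    gcongr
    exact geom_bound_le hβ hβ0 F2 (-p) (fun j hj => (hF2mem j hj).le)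
  have part1 : ∑ j ∈ F1, dz (A * β ^ (j + h)) * dz (A * β ^ j) ≤
      4 * β ^ (-p) + 2 * Real.exp (-L) * Real.sqrt ((K + p + 1) * S) := by
    have b : ∀ j ∈ F1, dz (A * β ^ (j + h)) * dz (A * β ^ j) ≤
        β ^ (-p) * β ^ (-p - j) + 2 * Real.exp (-L) * dz (A * β ^ j) := by
      intro j hj
      have hj1 := (hF1mem j hj).1
      have h1 := dz_tail hβ0 hσ hst (j + h)
      have h5 := dz_nonneg (A * β ^ j)
      have h6 := dz_le_half (A * β ^ j)
      have h7 : β ^ (-(j + h)) ≤ β ^ (-p) * β ^ (-p - j) := by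
        rw [← zpow_add₀ hβ0.ne']
        apply zpow_le_zpow_right₀ hβ1'
        omega
      have h8 : 0 ≤ β ^ (-(j + h)) := by positivity
      calc dz (A * β ^ (j + h)) * dz (A * β ^ j)
          ≤ (β ^ (-(j + h)) + 2 * Real.exp (-L)) * dz (A * β ^ j) := by gcongr
        _ = β ^ (-(j + h)) * dz (A * β ^ j) + 2 * Real.exp (-L) * dz (A * β ^ j) := by ring
        _ ≤ β ^ (-(j + h)) * 1 + 2 * Real.exp (-L) * dz (A * β ^ j) := by
            gcongr
            linarith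
        _ ≤ _ := by rw [mul_one]; gcongr
    refine (Finset.sum_le_sum b).trans ?_
    rw [Finset.sum_add_distrib, ← Finset.mul_sum, ← Finset.mul_sum]
    apply add_le_add
    · rw [mul_comm 4]
      gcongr
      exact geom_bound_ge hβ hβ0 F1 (-p) (fun j hj => (hF1mem j hj).1)
    · gcongr
      apply Real.le_sqrt_of_sq_le
      refine (sq_sum_le_card_mul_sum_sq).trans ?_
      have hS : ∑ j ∈ F1, dz (A * β ^ j) ^ 2 ≤ S := by
        apply hst.sum
        intro j hj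
        exact ((hF1mem j hj).2).trans hK
      have hcard : (F1.card : ℝ) ≤ K + p + 1 := by
        have hsub : F1 ⊆ Finset.Icc (-p) ⌊K⌋ := by
          intro j hj
          rw [Finset.mem_Icc]
          exact ⟨(hF1mem j hj).1, Int.le_floor.mpr (hF1mem j hj).2⟩
        have h1 := Finset.card_le_card hsub
        rw [Int.card_Icc] at h1
        have h2 : (F1.card : ℝ) ≤ ((⌊K⌋ + 1 - -p).toNat : ℝ) := by exact_mod_cast h1
        refine h2.trans ?_
        have h3 : (0 : ℤ) ≤ ⌊K⌋ := Int.floor_nonneg.mpr hK0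
        have h4 : ((⌊K⌋ + 1 - -p).toNat : ℝ) = (⌊K⌋ : ℝ) + 1 + p := by
          have : ((⌊K⌋ + 1 - -p).toNat : ℤ) = ⌊K⌋ + 1 - -p := Int.toNat_of_nonneg (by omega)
          have h5 : (((⌊K⌋ + 1 - -p).toNat : ℤ) : ℝ) = ((⌊K⌋ + 1 - -p : ℤ) : ℝ) := by rw [this]
          rw [Int.cast_natCast] at h5
          rw [h5]; push_cast; ring
        rw [h4]
        have := Int.floor_le K
        linarith
      have hS0 : 0 ≤ ∑ j ∈ F1, dz (A * β ^ j) ^ 2 := Finset.sum_nonneg (fun _ _ => by positivity)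
      have hp0' : (0 : ℝ) ≤ p := by exact_mod_cast hp0
      exact mul_le_mul hcard hS hS0 (by positivity)
  linarith

lemma cos_sub_eq {x y : ℝ} (hx : Real.cos x ≠ 0) (hy : Real.cos y ≠ 0) :
    Real.cos (x - y) = Real.cos x * Real.cos y * (1 + Real.tan x * Real.tan y) := by
  rw [Real.cos_sub, Real.tan_eq_sin_div_cos, Real.tan_eq_sin_div_cos]
  field_simp

lemma cosProd_cross (hβ : 2 ≤ β ^ 2) (hβ0 : 0 < β) (hσ : ‖σ‖ = 1) (hc : 0 < c)
    (hst : St β σ c L S A w C)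
    {k l p : ℤ} (hp0 : 0 ≤ p) (hpk : 2 * p ≤ k - l) {K : ℝ} (hK0 : 0 ≤ K)
    (hK : K ≤ Real.exp (2 * L)) (hlK : (l : ℝ) ≤ K) (M : ℕ) :
    |cosProd β⁻¹ (Real.pi * (A * β ^ k) - Real.pi * (A * β ^ l)) M
      - cosProd β⁻¹ (Real.pi * (A * β ^ k)) M * cosProd β⁻¹ (Real.pi * (A * β ^ l)) M|
    ≤ |cosProd β⁻¹ (Real.pi * (A * β ^ k)) M * cosProd β⁻¹ (Real.pi * (A * β ^ l)) M| *
      (Real.exp ((Real.pi / (2 * c)) ^ 2 * (4 * β ^ (w - p) + 4 * β ^ (-p)
        + 2 * Real.exp (-L) * Real.sqrt ((K + p + 1) * S))) - 1) := by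
  set x : ℕ → ℝ := fun n => A * β ^ (k - (n : ℤ)) with hx
  set y : ℕ → ℝ := fun n => A * β ^ (l - (n : ℤ)) with hy
  set t : ℕ → ℝ := fun n => Real.tan (Real.pi * x n) * Real.tan (Real.pi * y n) with ht
  have hmx : ∀ n, dz (x n) ≤ 1 / 2 - c := fun n => margin_c hβ0 hst _
  have hmy : ∀ n, dz (y n) ≤ 1 / 2 - c := fun n => margin_c hβ0 hst _
  have e1 : cosProd β⁻¹ (Real.pi * (A * β ^ k) - Real.pi * (A * β ^ l)) M
      = cosProd β⁻¹ (Real.pi * (A * β ^ k)) M * cosProd β⁻¹ (Real.pi * (A * β ^ l)) M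
        * ∏ n ∈ range M, (1 + t n) := by
    unfold cosProd
    rw [← Finset.prod_mul_distrib, ← Finset.prod_mul_distrib]
    apply Finset.prod_congr rfl
    intro n _
    rw [sub_mul, freq_eq hβ0, freq_eq hβ0]
    exact cos_sub_eq (cos_ne_zero_of hc (hmx n)) (cos_ne_zero_of hc (hmy n))
  rw [e1]
  have e2 : ∀ P Z : ℝ, |P * Z - P| = |P| * |Z - 1| := by
    intro P Z; rw [← abs_mul]; congr 1; ring
  rw [e2]
  gcongr
  have e3 := Finset.norm_prod_one_add_sub_one_le (range M) t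
  rw [Real.norm_eq_abs] at e3
  refine e3.trans ?_
  gcongr
  have e4 : ∀ n ∈ range M, ‖t n‖ ≤ (Real.pi / (2 * c)) ^ 2 *
      (dz (A * β ^ ((l - (n : ℤ)) + (k - l))) * dz (A * β ^ (l - (n : ℤ)))) := by
    intro n _
    rw [Real.norm_eq_abs, ht]
    simp only
    rw [abs_mul]
    have f1 := abs_tan_le hc (hmx n)
    have f2 := abs_tan_le hc (hmy n)
    have f3 : (l - (n : ℤ)) + (k - l) = k - n := by ring
    rw [f3]
    calc |Real.tan (Real.pi * x n)| * |Real.tan (Real.pi * y n)|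
        ≤ (Real.pi / (2 * c) * dz (x n)) * (Real.pi / (2 * c) * dz (y n)) := by
          apply mul_le_mul f1 f2 (abs_nonneg _)
          exact mul_nonneg (by positivity) (dz_nonneg _)
      _ = _ := by rw [hx, hy]; ring
  refine (Finset.sum_le_sum e4).trans ?_
  rw [← Finset.mul_sum]
  gcongr
  have e5 : ∑ n ∈ range M, dz (A * β ^ ((l - (n : ℤ)) + (k - l))) * dz (A * β ^ (l - (n : ℤ)))
      = ∑ j ∈ (range M).image (fun n : ℕ => l - (n : ℤ)),
        dz (A * β ^ (j + (k - l))) * dz (A * β ^ j) := by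
    rw [Finset.sum_image]
    intro x _ y _ hxy
    simp only at hxy
    omega
  rw [e5]
  apply cross_bound hβ hβ0 hσ hst hp0 hpk hK0 hK
  intro j hj
  rw [Finset.mem_image] at hj
  obtain ⟨n, _, rfl⟩ := hj
  push_cast
  have : (0 : ℝ) ≤ n := by positivity
  linarith

end

end Vale.P105
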