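import Vale.Agent.P105.Fourier

namespace Vale.P105

open Finset Filter Topology

lemma num_a {C1 L S R : ℝ} (hC1 : 0 ≤ C1) (hS : 0 ≤ S) (hR2 : R * (S + 1406) ≤ L)
    (hRa : 16 * C1 ≤ R) : Real.exp (C1 * S) ^ 2 ≤ Real.exp (L / 8) := by
  rw [← Real.exp_nat_mul]
  apply Real.exp_le_exp.mpr
  push_cast
  have h1 : 16 * C1 * S ≤ R * S := by gcongr
  have h2 : 0 ≤ R := by linarith
  have h3 : R * S ≤ L := by nlinarith
  linarith

lemma num_b {η L R : ℝ} (hη0 : 0 < η) (hR1 : R ≤ L) (hRb : 22 / η ≤ R) :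
    Real.exp (L / 8) ≤ η * (Real.exp (L / 2) / 8) := by
  have h1 : 22 ≤ η * L := by
    have : 22 / η ≤ L := by linarith
    rwa [div_le_iff₀' hη0] at this
  have h2 : Real.exp (L / 2) = Real.exp (3 * L / 8) * Real.exp (L / 8) := by
    rw [← Real.exp_add]; congr 1; ring
  have h3 := Real.add_one_le_exp (3 * L / 8)
  have h4 : 8 ≤ η * Real.exp (3 * L / 8) := by
    have : η * (3 * L / 8 + 1) ≤ η * Real.exp (3 * L / 8) := by gcongr
    nlinarith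
  rw [h2]
  have h5 := Real.exp_pos (L / 8)
  calc Real.exp (L / 8) = 8 * Real.exp (L / 8) / 8 := by ring
    _ ≤ (η * Real.exp (3 * L / 8)) * Real.exp (L / 8) / 8 := by gcongr
    _ = _ := by ring

lemma num_c {C2 η L S R : ℝ} (hη0 : 0 < η) (hη1 : η ≤ 1) (hC2 : 0 ≤ C2) (hL : 120 ≤ L)
    (hS : 0 ≤ S) (hR1 : R ≤ L) (hR2 : R * (S + 1406) ≤ L) (hRc : 2624 * C2 / η ≤ R)
    (hRd : 1 ≤ R) :
    Real.exp (C2 * (160 * Real.exp (-L) + 4 * Real.exp (-(L / 4)) * Real.sqrt S)) - 1 ≤ η := by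
  have hL0 : 0 < L := by linarith
  have hSL : S ≤ L := by nlinarith
  have h1 : Real.sqrt S ≤ L / 8 := by
    rw [Real.sqrt_le_left (by positivity)]
    nlinarith
  have h2 : L / 8 ≤ Real.exp (L / 8) := by
    have := Real.add_one_le_exp (L / 8); linarith
  have h3 : Real.exp (-(L / 4)) * Real.sqrt S ≤ Real.exp (-(L / 8)) := by
    calc Real.exp (-(L / 4)) * Real.sqrt S ≤ Real.exp (-(L / 4)) * Real.exp (L / 8) := by
          gcongr; linarith
      _ = Real.exp (-(L / 8)) := by rw [← Real.exp_add]; congr 1; ring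
  have h4 : Real.exp (-L) ≤ Real.exp (-(L / 8)) := by
    apply Real.exp_le_exp.mpr; linarith
  have h5 : Real.exp (-(L / 8)) ≤ 8 / L := by
    rw [Real.exp_neg]
    rw [show 8 / L = (L / 8)⁻¹ by rw [inv_div]]
    exact inv_anti₀ (by positivity) h2
  set x := C2 * (160 * Real.exp (-L) + 4 * Real.exp (-(L / 4)) * Real.sqrt S) with hx
  have hx0 : 0 ≤ x := by positivity
  have h6 : x ≤ η / 2 := by
    have h7 : 160 * Real.exp (-L) + 4 * Real.exp (-(L / 4)) * Real.sqrt S ≤ 164 * (8 / L) := by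
      have : 4 * Real.exp (-(L / 4)) * Real.sqrt S = 4 * (Real.exp (-(L / 4)) * Real.sqrt S) := by
        ring
      linarith
    have h8 : x ≤ C2 * (164 * (8 / L)) := by rw [hx]; gcongr
    have h9 : 2624 * C2 ≤ L * η := by
      have : 2624 * C2 / η ≤ L := by linarith
      rwa [div_le_iff₀ hη0] at this
    refine h8.trans ?_
    rw [show C2 * (164 * (8 / L)) = (1312 * C2) / L by ring, div_le_iff₀ hL0]
    linarith
  have h10 : |x| ≤ 1 := by rw [abs_of_nonneg hx0]; linarith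
  have h11 := Real.abs_exp_sub_one_le h10
  rw [abs_of_nonneg hx0] at h11
  have h12 := le_abs_self (Real.exp x - 1)
  linarith

lemma zpow_decay {β : ℝ} (hβ1 : (7 : ℝ) / 5 ≤ β) {m : ℤ} (hm : 0 < m) :
    β ^ (-m) ≤ 5 / 2 / m := by
  obtain ⟨k, rfl⟩ : ∃ k : ℕ, m = (k : ℤ) := ⟨m.toNat, by omega⟩
  have hk : (0 : ℝ) < k := by exact_mod_cast hm
  have h1 := one_add_mul_le_pow (show (-2 : ℝ) ≤ β - 1 by linarith) k
  rw [show (1 : ℝ) + (β - 1) = β by ring] at h1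
  have h2 : (2 : ℝ) / 5 * k ≤ β ^ k := by nlinarith
  rw [zpow_neg, zpow_natCast]
  calc (β ^ k)⁻¹ ≤ ((2 : ℝ) / 5 * k)⁻¹ := inv_anti₀ (by positivity) h2
    _ = 5 / 2 / ((k : ℤ) : ℝ) := by
      rw [Int.cast_natCast]; field_simp

variable {β : ℝ} {σ : ℂ}

lemma cosProd_neg (l ξ : ℝ) (M : ℕ) : cosProd l (-ξ) M = cosProd l ξ M := by
  unfold cosProd
  apply Finset.prod_congr rfl
  intro n _
  rw [neg_mul, Real.cos_neg]

lemma sqrt_bound {L S p : ℝ} (hL : 120 ≤ L) (hp : p ≤ Real.exp L) (hp0 : 0 ≤ p) :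
    2 * Real.exp (-L) * Real.sqrt ((Real.exp (3 / 2 * L) + p + 1) * S) ≤
      4 * Real.exp (-(L / 4)) * Real.sqrt S := by
  rw [Real.sqrt_mul (by positivity)]
  have h1 : Real.sqrt (Real.exp (3 / 2 * L) + p + 1) ≤ 2 * Real.exp (3 / 4 * L) := by
    rw [Real.sqrt_le_left (by positivity)]
    have h2 : (2 * Real.exp (3 / 4 * L)) ^ 2 = 4 * Real.exp (3 / 2 * L) := by
      rw [mul_pow, ← Real.exp_nat_mul]
      rw [show ((2 : ℕ) : ℝ) * (3 / 4 * L) = 3 / 2 * L by push_cast; ring]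
      norm_num
    rw [h2]
    have h3 : Real.exp L ≤ Real.exp (3 / 2 * L) := by
      apply Real.exp_le_exp.mpr; linarith
    have h4 : 1 ≤ Real.exp (3 / 2 * L) := Real.one_le_exp (by linarith)
    linarith
  have h5 : Real.exp (-L) * Real.exp (3 / 4 * L) = Real.exp (-(L / 4)) := by
    rw [← Real.exp_add]; congr 1; ring
  calc 2 * Real.exp (-L) * (Real.sqrt (Real.exp (3 / 2 * L) + p + 1) * Real.sqrt S)
      ≤ 2 * Real.exp (-L) * ((2 * Real.exp (3 / 4 * L)) * Real.sqrt S) := by gcongr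
    _ = 4 * (Real.exp (-L) * Real.exp (3 / 4 * L)) * Real.sqrt S := by ring
    _ = _ := by rw [h5]

/-- numerical bound for `β^(w-p)` -/
lemma decay_bound (hβ1 : (7 : ℝ) / 5 ≤ β) {L : ℝ} (hL : 120 ≤ L) {w p : ℤ} (hw0 : 0 ≤ w)
    (hw : (w : ℝ) ≤ Real.exp (3 / 4 * L)) (hp : Real.exp L / 4 ≤ p) :
    4 * β ^ (w - p) + 4 * β ^ (-p) ≤ 160 * Real.exp (-L) := by
  have hX0 := Real.exp_pos L
  have hw8 : (w : ℝ) ≤ Real.exp L / 8 := by
    refine hw.trans ?_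
    have h1 : Real.exp L = Real.exp (L / 4) * Real.exp (3 / 4 * L) := by
      rw [← Real.exp_add]; congr 1; ring
    have h2 : 8 ≤ Real.exp (L / 4) := by
      have := Real.add_one_le_exp (L / 4); linarith
    rw [h1]
    have h3 := Real.exp_pos (3 / 4 * L)
    nlinarith
  have hpw : Real.exp L / 8 ≤ ((p - w : ℤ) : ℝ) := by push_cast; linarith
  have hpw0 : 0 < p - w := by
    have : (0 : ℝ) < ((p - w : ℤ) : ℝ) := by linarith
    exact_mod_cast this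
  have hXinv : Real.exp (-L) = 1 / Real.exp L := by rw [Real.exp_neg, one_div]
  have hdec : β ^ (w - p) ≤ 20 * Real.exp (-L) := by
    have h1 := zpow_decay hβ1 hpw0
    rw [neg_sub] at h1
    refine h1.trans ?_
    rw [hXinv, div_le_iff₀ (by linarith)]
    calc (5 : ℝ) / 2 = 20 * (1 / Real.exp L) * (Real.exp L / 8) := by field_simp; norm_num
      _ ≤ _ := by gcongr
  have hdec2 : β ^ (-p) ≤ β ^ (w - p) := by
    apply zpow_le_zpow_right₀ (by linarith)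
    omega
  linarith

section lims

variable {c L S A : ℝ} {w : ℤ} {C : ℂ} {ch : ℝ → ℝ}

lemma ch_lower (hβ0 : 0 < β) (hc : 0 < c) (hst : St β σ c L S A w C)
    (hch : ∀ ξ, Tendsto (fun M => cosProd β⁻¹ ξ M) atTop (𝓝 (ch ξ))) {k : ℤ}
    (hk : (k : ℝ) ≤ Real.exp (2 * L)) :
    Real.exp (-(Real.pi ^ 2 / (4 * c) * S)) ≤ |ch (Real.pi * (A * β ^ k))| := by
  apply ge_of_tendsto' (hch _).abs
  intro M
  exact cosProd_lower hβ0 hc hst hk M

lemma ch_cross (hβ : 2 ≤ β ^ 2) (hβ0 : 0 < β) (hσ : ‖σ‖ = 1) (hc : 0 < c)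
    (hst : St β σ c L S A w C)
    (hch : ∀ ξ, Tendsto (fun M => cosProd β⁻¹ ξ M) atTop (𝓝 (ch ξ)))
    {η : ℝ} (hL : 120 ≤ L)
    (hη : Real.exp ((Real.pi / (2 * c)) ^ 2 *
      (160 * Real.exp (-L) + 4 * Real.exp (-(L / 4)) * Real.sqrt S)) - 1 ≤ η)
    {k l p : ℤ} (hp0 : 0 ≤ p) (hpX : (p : ℝ) ≤ Real.exp L) (hpX' : Real.exp L / 4 ≤ (p : ℝ))
    (hpk : 2 * p ≤ k - l) (hlK : (l : ℝ) ≤ Real.exp (3 / 2 * L)) :
    |ch (Real.pi * (A * β ^ k) - Real.pi * (A * β ^ l))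
      - ch (Real.pi * (A * β ^ k)) * ch (Real.pi * (A * β ^ l))|
    ≤ η * |ch (Real.pi * (A * β ^ k)) * ch (Real.pi * (A * β ^ l))| := by
  have hβ1 : (7 : ℝ) / 5 ≤ β := by nlinarith
  have hlim : |ch (Real.pi * (A * β ^ k) - Real.pi * (A * β ^ l))
      - ch (Real.pi * (A * β ^ k)) * ch (Real.pi * (A * β ^ l))| ≤
      |ch (Real.pi * (A * β ^ k)) * ch (Real.pi * (A * β ^ l))| *
      (Real.exp ((Real.pi / (2 * c)) ^ 2 * (4 * β ^ (w - p) + 4 * β ^ (-p)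
      + 2 * Real.exp (-L) * Real.sqrt ((Real.exp (3 / 2 * L) + p + 1) * S))) - 1) := by
    apply le_of_tendsto_of_tendsto' ((hch _).sub ((hch _).mul (hch _))).abs
      ((((hch _).mul (hch _)).abs).mul_const _)
    intro M
    apply cosProd_cross hβ hβ0 hσ hc hst hp0 hpk (by positivity) _ hlK M
    apply Real.exp_le_exp.mpr; linarith
  refine hlim.trans ?_
  rw [mul_comm]
  gcongr
  refine le_trans ?_ hη
  have h1 := sqrt_bound (S := S) hL hpX (by exact_mod_cast hp0)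
  have h2 := decay_bound hβ1 hL (by have := hst.hw0; omega) hst.hw hpX'
  have h3 : 4 * β ^ (w - p) + 4 * β ^ (-p) + 2 * Real.exp (-L) *
      Real.sqrt ((Real.exp (3 / 2 * L) + p + 1) * S) ≤
      160 * Real.exp (-L) + 4 * Real.exp (-(L / 4)) * Real.sqrt S := by linarith
  have h4 : (Real.pi / (2 * c)) ^ 2 * (4 * β ^ (w - p) + 4 * β ^ (-p) + 2 * Real.exp (-L) *
      Real.sqrt ((Real.exp (3 / 2 * L) + p + 1) * S)) ≤ (Real.pi / (2 * c)) ^ 2 *
      (160 * Real.exp (-L) + 4 * Real.exp (-(L / 4)) * Real.sqrt S) :=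
    mul_le_mul_of_nonneg_left h3 (by positivity)
  have h5 := Real.exp_le_exp.mpr h4
  linarith

lemma freq_sep (hβ : 2 ≤ β ^ 2) (hβ0 : 0 < β) (hA1 : 1 ≤ A) {k l : ℤ} (hkl : 2 ≤ k - l)
    {X : ℝ} (hX : X ≤ l) (hX0 : 1 ≤ X) :
    X ≤ Real.pi * (A * β ^ k) - Real.pi * (A * β ^ l) := by
  have hβ1 : (7 : ℝ) / 5 ≤ β := by nlinarith
  have hβ1' : 1 ≤ β := by linarith
  have h1 : β ^ k ≥ 2 * β ^ l := by
    have h2 : β ^ k = β ^ (k - l) * β ^ l := by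
      rw [← zpow_add₀ hβ0.ne']; congr 1; ring
    rw [h2]
    gcongr
    exact (two_le_zpow hβ hβ0 (n := 1) (le_refl _)).trans (zpow_le_zpow_right₀ hβ1' hkl)
  have h4 : 2 / 5 * X ≤ β ^ l := by
    obtain ⟨m, rfl⟩ : ∃ m : ℕ, l = (m : ℤ) := by
      refine ⟨l.toNat, ?_⟩
      have : (0 : ℝ) ≤ l := by linarith
      have : 0 ≤ l := by exact_mod_cast this
      omega
    have h5 := one_add_mul_le_pow (show (-2 : ℝ) ≤ β - 1 by linarith) m
    rw [show (1 : ℝ) + (β - 1) = β by ring] at h5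
    rw [zpow_natCast]
    rw [Int.cast_natCast] at hX
    nlinarith
  have h7 : Real.pi * (A * β ^ k) - Real.pi * (A * β ^ l) = Real.pi * A * (β ^ k - β ^ l) := by ring
  rw [h7]
  have h8 := Real.pi_gt_three
  have h9 : 3 ≤ Real.pi * A := by nlinarith
  have h10 : 2 / 5 * X ≤ β ^ k - β ^ l := by linarith
  calc X ≤ 3 * (2 / 5 * X) := by linarith
    _ ≤ Real.pi * A * (β ^ k - β ^ l) := by
      apply mul_le_mul h9 h10 (by positivity) (by positivity)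

end lims

/-- the choice of the integer parameters -/
lemma exists_params {L : ℝ} (hL : 120 ≤ L) :
    ∃ (n g : ℕ) (p : ℤ), 0 < n ∧ Real.exp (L / 2) / 8 ≤ n ∧ 2 ≤ g ∧ 0 ≤ p ∧ 2 * p ≤ g ∧
      (p : ℝ) ≤ Real.exp L ∧ Real.exp L / 4 ≤ (p : ℝ) ∧ Real.exp L ≤ g ∧
      (∀ i < n, ((g * (n + i) : ℕ) : ℝ) ≤ Real.exp (3 / 2 * L)) := by
  set X := Real.exp L with hX
  set Y := Real.exp (L / 2) with hY
  have hXL : 121 ≤ X := by
    have := Real.add_one_le_exp L; linarith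
  have hYL : 61 ≤ Y := by
    have := Real.add_one_le_exp (L / 2); linarith
  have hXY : Real.exp (3 / 2 * L) = X * Y := by
    rw [hX, hY, ← Real.exp_add]; congr 1; ring
  have hnle : ((⌊Y / 4⌋₊ : ℕ) : ℝ) ≤ Y / 4 := Nat.floor_le (by positivity)
  have hnge : Y / 8 ≤ (⌊Y / 4⌋₊ : ℕ) := by
    have := Nat.lt_floor_add_one (Y / 4)
    linarith
  have hn0 : 0 < ⌊Y / 4⌋₊ := by
    have : (0 : ℝ) < (⌊Y / 4⌋₊ : ℕ) := by linarith
    exact_mod_cast this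
  have hgge : X ≤ (⌈X⌉₊ : ℕ) := Nat.le_ceil X
  have hgle : ((⌈X⌉₊ : ℕ) : ℝ) ≤ 2 * X := by
    have := Nat.ceil_lt_add_one (show (0 : ℝ) ≤ X by positivity)
    linarith
  generalize ⌈X⌉₊ = g at *
  generalize ⌊Y / 4⌋₊ = n at *
  have hp2 : 2 * ((g / 2 : ℕ) : ℤ) ≤ g := by omega
  refine ⟨n, g, ((g / 2 : ℕ) : ℤ), hn0, hnge, ?_, by omega, hp2, ?_, ?_, hgge, ?_⟩
  · have : (2 : ℝ) ≤ g := by linarith
    exact_mod_cast this
  · have h2 : 2 * (((g / 2 : ℕ) : ℤ) : ℝ) ≤ g := by exact_mod_cast hp2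
    linarith
  · have h1 : (g : ℤ) ≤ 2 * ((g / 2 : ℕ) : ℤ) + 1 := by omega
    have h2 : (g : ℝ) ≤ 2 * (((g / 2 : ℕ) : ℤ) : ℝ) + 1 := by exact_mod_cast h1
    linarith
  · intro i hi
    rw [hXY]
    push_cast
    have h1 : (i : ℝ) ≤ n := by exact_mod_cast hi.le
    calc (g : ℝ) * (n + i) ≤ (2 * X) * (n + n) := by gcongr
      _ = 4 * X * n := by ring
      _ ≤ 4 * X * (Y / 4) := by gcongr
      _ = X * Y := by ring

theorem exists_freq (hβ : 2 ≤ β ^ 2) (hβ0 : 0 < β) (hσ : ‖σ‖ = 1) (hi : IsIntegral ℤ β)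
    (hi' : IsIntegral ℤ β⁻¹)
    (htr : ∀ j : ℤ, ∃ m : ℤ, β ^ j + β ^ (-j) + 2 * (σ ^ j).re = m)
    {ch : ℝ → ℝ} (hch : ∀ ξ, Tendsto (fun M => cosProd β⁻¹ ξ M) atTop (𝓝 (ch ξ)))
    {η : ℝ} (hη0 : 0 < η) (hη1 : η ≤ 1) :
    ∃ (n : ℕ) (B : ℝ) (ξ : ℕ → ℝ), 0 < n ∧ 0 < B ∧ B ^ 2 ≤ η * n ∧
      (∀ i < n, 1 ≤ B * |ch (ξ i)|) ∧
      (∀ i < n, ∀ j < n, i ≠ j →
        |ch (ξ i - ξ j) - ch (ξ i) * ch (ξ j)| ≤ η * |ch (ξ i) * ch (ξ j)|) ∧
      (∀ i < n, ∀ j < n, i ≠ j → B ^ 2 ≤ η * |ξ i - ξ j|) := by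
  obtain ⟨c, L₀, S₀, A₀, w₀, C₀, hc, _, hL₀, hst₀⟩ := exists_base hβ hβ0 hσ hi hi' htr
  have hC10 : 0 ≤ Real.pi ^ 2 / (4 * c) := by positivity
  have hC20 : 0 ≤ (Real.pi / (2 * c)) ^ 2 := by positivity
  obtain ⟨R, hRa, hRb, hRc, hRd⟩ : ∃ R : ℝ, 16 * (Real.pi ^ 2 / (4 * c)) ≤ R ∧ 22 / η ≤ R ∧
      2624 * ((Real.pi / (2 * c)) ^ 2) / η ≤ R ∧ 1 ≤ R :=
    ⟨max (max (16 * (Real.pi ^ 2 / (4 * c))) (22 / η))
      (max (2624 * ((Real.pi / (2 * c)) ^ 2) / η) 1),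
      (le_max_left _ _).trans (le_max_left _ _), (le_max_right _ _).trans (le_max_left _ _),
      (le_max_left _ _).trans (le_max_right _ _), (le_max_right _ _).trans (le_max_right _ _)⟩
  obtain ⟨L, S, A, w, C, hL1, hL2, hL, hS, hst⟩ := st_ratio hβ hβ0 hσ hL₀ hst₀ R
  have hBsq := num_a hC10 hS hL2 hRa
  have hL8 := num_b hη0 hL1 hRb
  have hE := num_c hη0 hη1 hC20 hL hS hL1 hL2 hRc hRd
  obtain ⟨n, g, p, hn0, hnge, hg2, hp0, hp2, hpX, hpX', hgX, hkK⟩ := exists_params hL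
  clear hRa hRb hRc hRd hL1 hL2
  have hX1 : 1 ≤ Real.exp L := Real.one_le_exp (by linarith)
  have hk2 : ∀ i < n, ∀ j < n, j < i →
      (g : ℤ) ≤ ((g * (n + i) : ℕ) : ℤ) - ((g * (n + j) : ℕ) : ℤ) := by
    intro i _ j _ hji
    push_cast
    have h2 : (1 : ℤ) ≤ (i : ℤ) - j := by omega
    have h3 : (0 : ℤ) ≤ g := by omega
    nlinarith
  have hcross : ∀ i < n, ∀ j < n, j < i →
      |ch (Real.pi * (A * β ^ ((g * (n + i) : ℕ) : ℤ)) - Real.pi * (A * β ^ ((g * (n + j) : ℕ) : ℤ)))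
        - ch (Real.pi * (A * β ^ ((g * (n + i) : ℕ) : ℤ)))
          * ch (Real.pi * (A * β ^ ((g * (n + j) : ℕ) : ℤ)))|
      ≤ η * |ch (Real.pi * (A * β ^ ((g * (n + i) : ℕ) : ℤ)))
          * ch (Real.pi * (A * β ^ ((g * (n + j) : ℕ) : ℤ)))| := by
    intro i hi j hj hji
    apply ch_cross hβ hβ0 hσ hc hst hch hL hE hp0 hpX hpX'
    · exact hp2.trans (hk2 i hi j hj hji)
    · exact_mod_cast hkK j hj
  have hsep : ∀ i < n, ∀ j < n, j < i → Real.exp L ≤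
      Real.pi * (A * β ^ ((g * (n + i) : ℕ) : ℤ)) - Real.pi * (A * β ^ ((g * (n + j) : ℕ) : ℤ)) := by
    intro i hi j hj hji
    apply freq_sep hβ hβ0 hst.hA1 _ _ hX1
    · have := hk2 i hi j hj hji
      omega
    · refine hgX.trans ?_
      have : g ≤ g * (n + j) := Nat.le_mul_of_pos_right g (by omega)
      exact_mod_cast this
  refine ⟨n, Real.exp (Real.pi ^ 2 / (4 * c) * S),
    fun i => Real.pi * (A * β ^ ((g * (n + i) : ℕ) : ℤ)), hn0, Real.exp_pos _, ?_, ?_, ?_, ?_⟩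
  · refine hBsq.trans (hL8.trans ?_)
    gcongr
  · intro i hi
    have h1 : Real.exp (-(Real.pi ^ 2 / (4 * c) * S)) ≤
        |ch (Real.pi * (A * β ^ ((g * (n + i) : ℕ) : ℤ)))| := by
      apply ch_lower hβ0 hc hst hch
      have h2 := hkK i hi
      have h3 : Real.exp (3 / 2 * L) ≤ Real.exp (2 * L) := by
        apply Real.exp_le_exp.mpr; linarith
      have h4 : ((((g * (n + i) : ℕ) : ℤ)) : ℝ) = ((g * (n + i) : ℕ) : ℝ) := by push_cast; rfl
      rw [h4]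
      exact h2.trans h3
    calc (1 : ℝ) = Real.exp (Real.pi ^ 2 / (4 * c) * S) * Real.exp (-(Real.pi ^ 2 / (4 * c) * S)) := by
          rw [← Real.exp_add]; simp
      _ ≤ _ := by gcongr
  · intro i hi j hj hij
    rcases lt_or_gt_of_ne hij with h | h
    · have h1 := hcross j hj i hi h
      have h2 : ∀ x y : ℝ, ch (x - y) = ch (y - x) := by
        intro x y
        apply tendsto_nhds_unique (hch _)
        refine (hch (y - x)).congr ?_
        intro M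
        rw [← cosProd_neg, neg_sub]
      simp only
      rw [h2, mul_comm (ch _) (ch (Real.pi * (A * β ^ ((g * (n + j) : ℕ) : ℤ))))]
      exact h1
    · exact hcross i hi j hj h
  · intro i hi j hj hij
    have hXη : Real.exp (Real.pi ^ 2 / (4 * c) * S) ^ 2 ≤ η * Real.exp L := by
      refine hBsq.trans (hL8.trans ?_)
      gcongr
      have h1 : Real.exp (L / 2) ≤ Real.exp L := by
        apply Real.exp_le_exp.mpr; linarith
      have h2 := Real.exp_pos (L / 2)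
      linarith
    refine hXη.trans ?_
    gcongr
    rcases lt_or_gt_of_ne hij with h | h
    · simp only
      rw [abs_sub_comm]
      exact (hsep j hj i hi h).trans (le_abs_self _)
    · exact (hsep i hi j hj h).trans (le_abs_self _)

end Vale.P105
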