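import Vale.Agent.P105.Defs
import Vale.Agent.P105.Fourier

namespace Vale.P105

open MeasureTheory ProbabilityTheory Finset Filter Topology

/-- the probability space of coin flips -/
noncomputable abbrev P : Measure (ℕ → Bool) := Measure.infinitePi (fun _ : ℕ => coin)

noncomputable def X (l : ℝ) (ω : ℕ → Bool) : ℝ := ∑' n : ℕ, sgn (ω n) * l ^ n

noncomputable def XM (l : ℝ) (M : ℕ) (ω : ℕ → Bool) : ℝ := ∑ n ∈ range M, sgn (ω n) * l ^ n

lemma abs_sgn (b : Bool) : |sgn b| = 1 := by cases b <;> simp [sgn]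

lemma continuous_sgn : Continuous sgn := continuous_of_discreteTopology

lemma measurable_sgn : Measurable sgn := measurable_of_countable _

lemma term_bound {l : ℝ} (hl0 : 0 ≤ l) (ω : ℕ → Bool) (n : ℕ) : ‖sgn (ω n) * l ^ n‖ ≤ l ^ n := by
  rw [norm_mul, Real.norm_eq_abs, abs_sgn, one_mul, norm_pow, Real.norm_of_nonneg hl0]

lemma summable_term {l : ℝ} (hl0 : 0 ≤ l) (hl1 : l < 1) (ω : ℕ → Bool) :
    Summable (fun n : ℕ => sgn (ω n) * l ^ n) :=
  Summable.of_norm_bounded (summable_geometric_of_lt_one hl0 hl1) (term_bound hl0 ω)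

lemma continuous_X {l : ℝ} (hl0 : 0 ≤ l) (hl1 : l < 1) : Continuous (X l) := by
  unfold X
  apply continuous_tsum (u := fun n : ℕ => l ^ n)
  · intro n
    exact (continuous_sgn.comp (continuous_apply n)).mul continuous_const
  · exact summable_geometric_of_lt_one hl0 hl1
  · intro n ω
    exact term_bound hl0 ω n

lemma measurable_X {l : ℝ} (hl0 : 0 ≤ l) (hl1 : l < 1) : Measurable (X l) :=
  (continuous_X hl0 hl1).measurable

lemma bernoulliConv_eq (l : ℝ) : bernoulliConv l = P.map (X l) := rfl

lemma isProb {l : ℝ} (hl0 : 0 ≤ l) (hl1 : l < 1) : IsProbabilityMeasure (bernoulliConv l) := by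
  rw [bernoulliConv_eq]
  exact Measure.isProbabilityMeasure_map (measurable_X hl0 hl1).aemeasurable

lemma abs_X_le {l : ℝ} (hl0 : 0 ≤ l) (hl1 : l < 1) (ω : ℕ → Bool) : |X l ω| ≤ (1 - l)⁻¹ := by
  unfold X
  rw [← Real.norm_eq_abs, ← tsum_geometric_of_lt_one hl0 hl1]
  exact tsum_of_norm_bounded (summable_geometric_of_lt_one hl0 hl1).hasSum (term_bound hl0 ω)

lemma support_bernoulliConv {l : ℝ} (hl0 : 0 ≤ l) (hl1 : l < 1) :
    bernoulliConv l (Set.Icc (-(1 - l)⁻¹) (1 - l)⁻¹)ᶜ = 0 := by
  rw [bernoulliConv_eq, Measure.map_apply (measurable_X hl0 hl1) measurableSet_Icc.compl]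
  have : X l ⁻¹' (Set.Icc (-(1 - l)⁻¹) (1 - l)⁻¹)ᶜ = ∅ := by
    ext ω
    simp only [Set.mem_preimage, Set.mem_compl_iff, Set.mem_Icc, Set.mem_empty_iff_false,
      iff_false, not_not]
    exact abs_le.mp (abs_X_le hl0 hl1 ω)
  rw [this, measure_empty]

lemma iIndep_terms (l : ℝ) : iIndepFun (fun n (ω : ℕ → Bool) => sgn (ω n) * l ^ n) P :=
  iIndepFun_infinitePi (P := fun _ : ℕ => coin) (X := fun n b => sgn b * l ^ n)
    (fun _ => measurable_of_countable _)

lemma integral_coin (f : Bool → ℂ) : ∫ b, f b ∂coin = (f true + f false) / 2 := by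
  unfold coin
  rw [integral_add_measure, integral_smul_measure, integral_smul_measure, integral_dirac,
    integral_dirac]
  · simp only [ENNReal.toReal_inv, ENNReal.toReal_ofNat, Complex.real_smul]
    push_cast
    ring
  · exact Integrable.smul_measure (integrable_dirac (by simp)) (by simp)
  · exact Integrable.smul_measure (integrable_dirac (by simp)) (by simp)

lemma charFun_term (l : ℝ) (n : ℕ) (t : ℝ) :
    charFun (P.map (fun ω : ℕ → Bool => sgn (ω n) * l ^ n)) t = (Real.cos (t * l ^ n) : ℂ) := by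
  rw [charFun_apply_real, integral_map]
  · have h1 : ∫ ω, Complex.exp (t * ((sgn (ω n) * l ^ n : ℝ) : ℂ) * Complex.I) ∂P
        = ∫ b, Complex.exp (t * ((sgn b * l ^ n : ℝ) : ℂ) * Complex.I) ∂coin := by
      have h2 := Measure.infinitePi_map_eval (fun _ : ℕ => coin) n
      rw [← h2, integral_map]
      · exact (measurable_pi_apply n).aemeasurable
      · exact (measurable_of_countable _).aestronglyMeasurable
    rw [h1, integral_coin]
    simp only [sgn, if_true]
    rw [Complex.ofReal_cos, Complex.cos]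
    push_cast
    simp
  · exact (measurable_sgn.comp (measurable_pi_apply n)).mul_const _ |>.aemeasurable
  · exact (by fun_prop : Measurable fun x : ℝ => Complex.exp (t * x * Complex.I)).aestronglyMeasurable

lemma charFun_XM (l : ℝ) (M : ℕ) (t : ℝ) :
    charFun (P.map (XM l M)) t = (cosProd l t M : ℂ) := by
  unfold XM
  have h := (iIndep_terms l)
  have h1 := iIndepFun.charFun_map_fun_finsetSum_eq_prod (s := range M)
    (X := fun n (ω : ℕ → Bool) => sgn (ω n) * l ^ n) (P := P)
    (fun n _ => ((measurable_sgn.comp (measurable_pi_apply n)).mul_const _).aemeasurable)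
    (h.restrict _)
  rw [h1]
  unfold cosProd
  rw [Finset.prod_apply]
  push_cast
  apply Finset.prod_congr rfl
  intro n _
  rw [charFun_term]
  push_cast
  rfl

lemma tendsto_charFun {l : ℝ} (hl0 : 0 ≤ l) (hl1 : l < 1) (t : ℝ) :
    Tendsto (fun M => ((cosProd l t M : ℝ) : ℂ)) atTop (𝓝 (charFun (bernoulliConv l) t)) := by
  have h1 : ∀ M, ((cosProd l t M : ℝ) : ℂ) = ∫ ω, Complex.exp (t * (XM l M ω : ℝ) * Complex.I) ∂P := by
    intro M
    rw [← charFun_XM, charFun_apply_real, integral_map]
    · unfold XM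
      apply Measurable.aemeasurable
      apply Finset.measurable_fun_sum
      intro n _
      exact (measurable_sgn.comp (measurable_pi_apply n)).mul_const _
    · exact (by fun_prop : Measurable fun x : ℝ => Complex.exp (t * x * Complex.I)).aestronglyMeasurable
  have h2 : charFun (bernoulliConv l) t = ∫ ω, Complex.exp (t * (X l ω : ℝ) * Complex.I) ∂P := by
    rw [bernoulliConv_eq, charFun_apply_real, integral_map]
    · exact (measurable_X hl0 hl1).aemeasurable
    · exact (by fun_prop : Measurable fun x : ℝ => Complex.exp (t * x * Complex.I)).aestronglyMeasurable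
  rw [h2]
  simp_rw [h1]
  apply tendsto_integral_of_dominated_convergence (fun _ => (1 : ℝ))
  · intro M
    apply Measurable.aestronglyMeasurable
    have : Measurable (XM l M) := by
      unfold XM
      apply Finset.measurable_fun_sum
      intro n _
      exact (measurable_sgn.comp (measurable_pi_apply n)).mul_const _
    fun_prop
  · exact integrable_const _
  · intro M
    filter_upwards with ω
    rw [show (t : ℂ) * (XM l M ω : ℝ) * Complex.I = ((t * XM l M ω : ℝ) : ℂ) * Complex.I by
      push_cast; ring]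
    rw [Complex.norm_exp_ofReal_mul_I]
  · filter_upwards with ω
    have h3 : Tendsto (fun M => XM l M ω) atTop (𝓝 (X l ω)) :=
      (summable_term hl0 hl1 ω).hasSum.tendsto_sum_nat
    have h4 : Continuous (fun x : ℝ => Complex.exp (t * (x : ℂ) * Complex.I)) := by fun_prop
    exact (h4.tendsto _).comp h3

/-- the (real valued) Fourier transform -/
noncomputable def ch (l t : ℝ) : ℝ := (charFun (bernoulliConv l) t).re

lemma charFun_eq_ch {l : ℝ} (hl0 : 0 ≤ l) (hl1 : l < 1) (t : ℝ) :
    charFun (bernoulliConv l) t = (ch l t : ℂ) := by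
  have h := tendsto_charFun hl0 hl1 t
  have h1 : Tendsto (fun M => (((cosProd l t M : ℝ) : ℂ)).im) atTop
      (𝓝 (charFun (bernoulliConv l) t).im) := (Complex.continuous_im.tendsto _).comp h
  simp only [Complex.ofReal_im] at h1
  have h2 : (charFun (bernoulliConv l) t).im = 0 := (tendsto_nhds_unique h1 tendsto_const_nhds)
  apply Complex.ext
  · simp [ch]
  · rw [h2]; simp

lemma tendsto_ch {l : ℝ} (hl0 : 0 ≤ l) (hl1 : l < 1) (t : ℝ) :
    Tendsto (fun M => cosProd l t M) atTop (𝓝 (ch l t)) := by
  have h := tendsto_charFun hl0 hl1 t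
  have h1 : Tendsto (fun M => (((cosProd l t M : ℝ) : ℂ)).re) atTop
      (𝓝 (charFun (bernoulliConv l) t).re) := (Complex.continuous_re.tendsto _).comp h
  simp only [Complex.ofReal_re] at h1
  exact h1

lemma integral_exp {l : ℝ} (hl0 : 0 ≤ l) (hl1 : l < 1) (t : ℝ) :
    ∫ x, Complex.exp (t * x * Complex.I) ∂(bernoulliConv l) = (ch l t : ℂ) := by
  rw [← charFun_eq_ch hl0 hl1, charFun_apply_real]

end Vale.P105
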