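import Mathlib

namespace Vale.P105

open MeasureTheory Finset Filter Topology

/-- If for every `ε > 0` there is a measurable set of volume `≤ ε` carrying all of `ν` but `ε`,
then `ν` is singular. -/
lemma sing_criterion (ν : Measure ℝ)
    (h : ∀ ε : ℝ, 0 < ε → ∃ U : Set ℝ, MeasurableSet U ∧ volume U ≤ ENNReal.ofReal ε ∧
      ν Uᶜ ≤ ENNReal.ofReal ε) : ν.MutuallySingular volume := by
  have h' : ∀ k : ℕ, ∃ U : Set ℝ, MeasurableSet U ∧ volume U ≤ ENNReal.ofReal ((1 / 2 : ℝ) ^ k) ∧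
      ν Uᶜ ≤ ENNReal.ofReal ((1 / 2 : ℝ) ^ k) := fun k => h _ (by positivity)
  choose U hUm hU1 hU2 using h'
  have hsum : ∑' k, volume (U k) ≠ ⊤ := by
    have h1 : ∑' k, volume (U k) ≤ ∑' k : ℕ, ENNReal.ofReal ((1 / 2 : ℝ) ^ k) :=
      ENNReal.tsum_le_tsum hU1
    refine ne_top_of_le_ne_top ?_ h1
    rw [← ENNReal.ofReal_tsum_of_nonneg (fun k => by positivity)
      (summable_geometric_of_lt_one (by norm_num) (by norm_num))]
    exact ENNReal.ofReal_ne_top
  have hlim := measure_limsup_atTop_eq_zero hsum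
  refine ⟨(limsup U atTop)ᶜ, (MeasurableSet.measurableSet_limsup hUm).compl, ?_, ?_⟩
  · have hsub : (limsup U atTop)ᶜ ⊆ ⋃ n, ⋂ k ≥ n, (U k)ᶜ := by
      intro x hx
      rw [Filter.limsup_eq_iInf_iSup_of_nat] at hx
      simp only [Set.iInf_eq_iInter, Set.iSup_eq_iUnion, Set.mem_compl_iff, Set.mem_iInter,
        Set.mem_iUnion, not_forall, not_exists] at hx
      obtain ⟨n, hn⟩ := hx
      simp only [Set.mem_iUnion, Set.mem_iInter, Set.mem_compl_iff]
      exact ⟨n, fun k hk => hn k hk⟩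
    refine measure_mono_null hsub ?_
    rw [measure_iUnion_null_iff]
    intro n
    have h1 : ∀ k ≥ n, ν (⋂ k ≥ n, (U k)ᶜ) ≤ ENNReal.ofReal ((1 / 2 : ℝ) ^ k) := by
      intro k hk
      refine (measure_mono ?_).trans (hU2 k)
      exact Set.iInter₂_subset k hk
    have h2 : Tendsto (fun k : ℕ => ENNReal.ofReal ((1 / 2 : ℝ) ^ k)) atTop (𝓝 0) := by
      rw [← ENNReal.ofReal_zero]
      exact ENNReal.tendsto_ofReal (tendsto_pow_atTop_nhds_zero_of_lt_one (by norm_num) (by norm_num))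
    have h3 : ν (⋂ k ≥ n, (U k)ᶜ) ≤ 0 := by
      apply ge_of_tendsto h2
      filter_upwards [eventually_ge_atTop n] with k hk
      exact h1 k hk
    exact le_antisymm h3 zero_le
  · rw [compl_compl]
    exact hlim

/-- second moment of a finite sum -/
lemma integral_norm_sq_sum_le {α : Type*} [MeasurableSpace α] (μ : Measure α) [IsFiniteMeasure μ]
    (n : ℕ) (f : ℕ → α → ℂ) (hf : ∀ i, Measurable (f i)) {D : ℝ} (hb : ∀ i x, ‖f i x‖ ≤ D) :
    ∫ x, ‖∑ i ∈ range n, f i x‖ ^ 2 ∂μ ≤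
      ∑ i ∈ range n, ∑ j ∈ range n, ‖∫ x, f i x * (starRingEnd ℂ) (f j x) ∂μ‖ := by
  have hint : ∀ i j, Integrable (fun x => f i x * (starRingEnd ℂ) (f j x)) μ := by
    intro i j
    apply Integrable.of_bound (C := D * D)
    · exact ((hf i).mul (Complex.continuous_conj.measurable.comp (hf j))).aestronglyMeasurable
    · filter_upwards with x
      rw [norm_mul, RCLike.norm_conj]
      have := hb i x
      have := hb j x
      exact mul_le_mul (hb i x) (hb j x) (norm_nonneg _) ((norm_nonneg _).trans (hb i x))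
  have h1 : ∀ x, ((‖∑ i ∈ range n, f i x‖ ^ 2 : ℝ) : ℂ)
      = ∑ i ∈ range n, ∑ j ∈ range n, f i x * (starRingEnd ℂ) (f j x) := by
    intro x
    rw [← Complex.normSq_eq_norm_sq, ← Complex.mul_conj, map_sum, Finset.sum_mul_sum]
  have h2 : ((∫ x, ‖∑ i ∈ range n, f i x‖ ^ 2 ∂μ : ℝ) : ℂ)
      = ∑ i ∈ range n, ∑ j ∈ range n, ∫ x, f i x * (starRingEnd ℂ) (f j x) ∂μ := by
    rw [← integral_complex_ofReal]
    simp_rw [h1]
    rw [integral_finsetSum _ (fun i _ => integrable_finsetSum _ (fun j _ => hint i j))]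
    apply Finset.sum_congr rfl
    intro i _
    rw [integral_finsetSum _ (fun j _ => hint i j)]
  have h3 : ∫ x, ‖∑ i ∈ range n, f i x‖ ^ 2 ∂μ
      = ‖∑ i ∈ range n, ∑ j ∈ range n, ∫ x, f i x * (starRingEnd ℂ) (f j x) ∂μ‖ := by
    rw [← h2, Complex.norm_real, Real.norm_of_nonneg]
    exact integral_nonneg (fun x => by positivity)
  rw [h3]
  refine (norm_sum_le _ _).trans ?_
  gcongr
  exact norm_sum_le _ _

/-- Chebyshev -/
lemma cheb {α : Type*} [MeasurableSpace α] (μ : Measure α) [IsFiniteMeasure μ] {g : α → ℝ}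
    (hg : Measurable g) (hg0 : ∀ x, 0 ≤ g x) {D : ℝ} (hb : ∀ x, g x ≤ D) {ε : ℝ}
    (hε : ∫ x, g x ∂μ ≤ ε) : μ {x | 1 / 4 ≤ g x} ≤ ENNReal.ofReal (4 * ε) := by
  have hint : Integrable g μ := by
    apply Integrable.of_bound (C := D) hg.aestronglyMeasurable
    filter_upwards with x
    rw [Real.norm_of_nonneg (hg0 x)]
    exact hb x
  have h := mul_meas_ge_le_integral_of_nonneg (μ := μ) (f := g)
    (by filter_upwards with x using hg0 x) hint (1 / 4)
  have h1 : μ.real {x | 1 / 4 ≤ g x} ≤ 4 * ε := by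
    linarith
  rw [← ENNReal.ofReal_toReal (measure_ne_top μ {x | 1 / 4 ≤ g x})]
  exact ENNReal.ofReal_le_ofReal h1

end Vale.P105
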