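import Vale.Agent.P105.Law
import Vale.Agent.P105.Freq
import Vale.Agent.P105.Sing

namespace Vale.P105

open MeasureTheory Finset Filter Topology

lemma norm_exp_freq (t x : ℝ) : ‖Complex.exp (t * x * Complex.I)‖ = 1 := by
  rw [show (t : ℂ) * x * Complex.I = ((t * x : ℝ) : ℂ) * Complex.I by push_cast; ring]
  exact Complex.norm_exp_ofReal_mul_I _

lemma conj_exp_freq (t x : ℝ) : (starRingEnd ℂ) (Complex.exp (t * x * Complex.I))
    = Complex.exp (-(t * x * Complex.I)) := by
  rw [← Complex.exp_conj]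
  congr 1
  simp

lemma exp_mul_conj (s t x : ℝ) : Complex.exp (s * x * Complex.I)
    * (starRingEnd ℂ) (Complex.exp (t * x * Complex.I))
    = Complex.exp (((s - t : ℝ) : ℂ) * x * Complex.I) := by
  rw [conj_exp_freq, ← Complex.exp_add]
  congr 1
  push_cast
  ring

lemma norm_integral_exp_le {r c : ℝ} (hr : 0 ≤ r) (hc : c ≠ 0) :
    ‖∫ x in Set.Ioc (-r) r, Complex.exp ((c : ℂ) * x * Complex.I)‖ ≤ 2 / |c| := by
  rw [← intervalIntegral.integral_of_le (by linarith)]
  have hc' : (c : ℂ) * Complex.I ≠ 0 := by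
    simp [hc]
  have h1 : (fun x : ℝ => Complex.exp ((c : ℂ) * x * Complex.I))
      = fun x : ℝ => Complex.exp ((c * Complex.I) * x) := by
    funext x; congr 1; ring
  rw [h1, integral_exp_mul_complex hc', norm_div]
  have h2 : ‖(c : ℂ) * Complex.I‖ = |c| := by simp
  rw [h2]
  gcongr
  refine (norm_sub_le _ _).trans ?_
  have h3 : ∀ y : ℝ, ‖Complex.exp ((c * Complex.I) * (y : ℂ))‖ = 1 := by
    intro y
    rw [show (c : ℂ) * Complex.I * y = ((c * y : ℝ) : ℂ) * Complex.I by push_cast; ring]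
    exact Complex.norm_exp_ofReal_mul_I _
  rw [h3 r]
  have h4 := h3 (-r)
  rw [h4]
  norm_num

lemma sum_diag_off (n : ℕ) (a b : ℝ) (ha : 0 ≤ a) (hb : 0 ≤ b) (G : ℕ → ℕ → ℝ)
    (h1 : ∀ i < n, G i i ≤ a) (h2 : ∀ i < n, ∀ j < n, i ≠ j → G i j ≤ b) :
    ∑ i ∈ range n, ∑ j ∈ range n, G i j ≤ n * a + n ^ 2 * b := by
  have h3 : ∀ i ∈ range n, ∑ j ∈ range n, G i j ≤ a + n * b := by
    intro i hi
    rw [Finset.mem_range] at hi
    have h4 : ∀ j ∈ range n, G i j ≤ (if i = j then a else 0) + b := by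
      intro j hj
      rw [Finset.mem_range] at hj
      by_cases hij : i = j
      · subst hij
        simp only [if_true]
        have := h1 i hi
        linarith
      · simp only [hij, if_false]
        have := h2 i hi j hj hij
        linarith
    refine (Finset.sum_le_sum h4).trans ?_
    rw [Finset.sum_add_distrib, Finset.sum_ite_eq, if_pos (Finset.mem_range.mpr hi),
      Finset.sum_const, card_range, nsmul_eq_mul]
  refine (Finset.sum_le_sum h3).trans ?_
  rw [Finset.sum_const, card_range, nsmul_eq_mul]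
  apply le_of_eq
  ring

theorem singular_of_freq (ν : Measure ℝ) [IsProbabilityMeasure ν] {r : ℝ} (hr : 0 ≤ r)
    (hsupp : ν (Set.Ioc (-r) r)ᶜ = 0) (φ : ℝ → ℝ)
    (hφ : ∀ t : ℝ, ∫ x, Complex.exp (t * x * Complex.I) ∂ν = (φ t : ℂ))
    (hfreq : ∀ η : ℝ, 0 < η → η ≤ 1 →
      ∃ (n : ℕ) (B : ℝ) (ξ : ℕ → ℝ), 0 < n ∧ 0 < B ∧ B ^ 2 ≤ η * n ∧
      (∀ i < n, 1 ≤ B * |φ (ξ i)|) ∧
      (∀ i < n, ∀ j < n, i ≠ j →
        |φ (ξ i - ξ j) - φ (ξ i) * φ (ξ j)| ≤ η * |φ (ξ i) * φ (ξ j)|) ∧
      (∀ i < n, ∀ j < n, i ≠ j → B ^ 2 ≤ η * |ξ i - ξ j|)) :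
    ν.MutuallySingular volume := by
  apply sing_criterion
  intro ε hε
  set η := min 1 (ε / (8 * (r + 1))) with hη
  have hη0 : 0 < η := lt_min one_pos (by positivity)
  have hη1 : η ≤ 1 := min_le_left _ _
  have hηε : 8 * (r + 1) * η ≤ ε := by
    have : η ≤ ε / (8 * (r + 1)) := min_le_right _ _
    rw [le_div_iff₀ (by positivity)] at this
    linarith
  obtain ⟨n, B, ξ, hn, hB, hBn, hlow, hcross, hsep⟩ := hfreq η hη0 hη1
  have hn0 : (0 : ℝ) < n := by exact_mod_cast hn
  have hφ0 : φ 0 = 1 := by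
    have := hφ 0
    simp at this
    exact_mod_cast this.symm
  have hφneg : ∀ t, φ (-t) = φ t := by
    intro t
    have h1 := hφ (-t)
    have h2 := hφ t
    have h3 : (starRingEnd ℂ) (∫ x, Complex.exp (t * x * Complex.I) ∂ν)
        = ∫ x, Complex.exp (((-t : ℝ) : ℂ) * x * Complex.I) ∂ν := by
      rw [← integral_conj]
      congr 1
      funext x
      rw [conj_exp_freq]
      congr 1
      push_cast; ring
    rw [h1, h2, Complex.conj_ofReal] at h3
    exact_mod_cast h3.symm
  -- coefficients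
  set m : ℕ → ℝ := fun i => if i < n then φ (ξ i) else B⁻¹ with hm
  have hmn : ∀ i < n, m i = φ (ξ i) := by
    intro i hi; simp [hm, hi]
  have hmB : ∀ i, 1 ≤ B * |m i| := by
    intro i
    by_cases hi : i < n
    · rw [hmn i hi]; exact hlow i hi
    · simp only [hm, hi, if_false]
      rw [abs_of_pos (by positivity)]
      field_simp
      exact le_refl _
  have hm0 : ∀ i, m i ≠ 0 := by
    intro i h0
    have := hmB i
    rw [h0] at this
    simp at this
    linarith
  have hminv : ∀ i, |(m i)⁻¹| ≤ B := by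
    intro i
    rw [abs_inv, inv_le_iff_one_le_mul₀ (abs_pos.mpr (hm0 i))]
    exact hmB i
  set e : ℕ → ℝ → ℂ := fun i x => Complex.exp (ξ i * x * Complex.I) * ((m i)⁻¹ : ℝ) with he
  have hemeas : ∀ i, Measurable (e i) := by
    intro i
    rw [he]
    fun_prop
  have henorm : ∀ i x, ‖e i x‖ ≤ B := by
    intro i x
    rw [he]
    simp only
    rw [norm_mul, norm_exp_freq, one_mul, Complex.norm_real, Real.norm_eq_abs]
    exact hminv i
  set Y : ℝ → ℂ := fun x => (1 / n : ℝ) * ∑ i ∈ range n, e i x with hY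
  have hYmeas : Measurable Y := by
    rw [hY]
    apply Measurable.const_mul
    exact Finset.measurable_fun_sum _ (fun i _ => hemeas i)
  -- product formulas
  have hee : ∀ i j x, e i x * (starRingEnd ℂ) (e j x)
      = (((m i)⁻¹ * (m j)⁻¹ : ℝ) : ℂ) * Complex.exp (((ξ i - ξ j : ℝ) : ℂ) * x * Complex.I) := by
    intro i j x
    rw [← exp_mul_conj, he]
    simp only [map_mul, Complex.conj_ofReal]
    push_cast
    ring
  -- volume bound
  have hvol : ∫ x in Set.Ioc (-r) r, ‖Y x‖ ^ 2 ≤ (2 * r + 2) * η := by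
    have h1 : ∀ x, ‖Y x‖ ^ 2 = (1 / n) ^ 2 * ‖∑ i ∈ range n, e i x‖ ^ 2 := by
      intro x
      rw [hY]
      simp only
      rw [norm_mul, mul_pow, Complex.norm_real, Real.norm_of_nonneg (by positivity)]
    simp_rw [h1]
    rw [integral_const_mul]
    have h2 := integral_norm_sq_sum_le (volume.restrict (Set.Ioc (-r) r)) n e hemeas henorm
    have h3 : ∑ i ∈ range n, ∑ j ∈ range n,
        ‖∫ x in Set.Ioc (-r) r, e i x * (starRingEnd ℂ) (e j x)‖ ≤
        n * (2 * r * B ^ 2) + n ^ 2 * (2 * η) := by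
      apply sum_diag_off n _ _ (by positivity) (by positivity)
      · intro i hi
        simp_rw [hee]
        rw [integral_const_mul, norm_mul, Complex.norm_real, Real.norm_eq_abs, abs_mul]
        have h4 : ‖∫ x in Set.Ioc (-r) r, Complex.exp (((ξ i - ξ i : ℝ) : ℂ) * x * Complex.I)‖
            = 2 * r := by
          have h40 : (fun x : ℝ => Complex.exp (((ξ i - ξ i : ℝ) : ℂ) * x * Complex.I))
              = fun _ => (1 : ℂ) := by
            funext x; simp
          rw [h40, integral_const]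
          have h41 : (volume.restrict (Set.Ioc (-r) r)).real Set.univ = 2 * r := by
            rw [Measure.real, Measure.restrict_apply_univ, Real.volume_Ioc,
              ENNReal.toReal_ofReal (by linarith)]
            ring
          rw [h41]
          simp [abs_of_nonneg hr]
        rw [h4]
        have := hminv i
        have h5 : |(m i)⁻¹| * |(m i)⁻¹| ≤ B * B := by gcongr
        calc |(m i)⁻¹| * |(m i)⁻¹| * (2 * r) ≤ B * B * (2 * r) := by gcongr
          _ = 2 * r * B ^ 2 := by ring
      · intro i hi j hj hij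
        simp_rw [hee]
        rw [integral_const_mul, norm_mul, Complex.norm_real, Real.norm_eq_abs, abs_mul]
        have h6 := hsep i hi j hj hij
        have h7 : ξ i - ξ j ≠ 0 := by
          intro h0
          rw [h0, abs_zero, mul_zero] at h6
          have : 0 < B ^ 2 := by positivity
          linarith
        have h8 := norm_integral_exp_le hr h7
        have h9 : |(m i)⁻¹| * |(m j)⁻¹| ≤ B * B := by
          gcongr
          · exact hminv i
          · exact hminv j
        calc |(m i)⁻¹| * |(m j)⁻¹| * ‖∫ x in Set.Ioc (-r) r,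
              Complex.exp (((ξ i - ξ j : ℝ) : ℂ) * x * Complex.I)‖
            ≤ B * B * (2 / |ξ i - ξ j|) := by gcongr
          _ = 2 * (B ^ 2 / |ξ i - ξ j|) := by ring
          _ ≤ 2 * η := by
              gcongr
              rw [div_le_iff₀ (abs_pos.mpr h7)]
              exact h6
    have h10 := h2.trans h3
    calc (1 / (n : ℝ)) ^ 2 * ∫ x in Set.Ioc (-r) r, ‖∑ i ∈ range n, e i x‖ ^ 2
        ≤ (1 / (n : ℝ)) ^ 2 * (n * (2 * r * B ^ 2) + n ^ 2 * (2 * η)) := by gcongr
      _ = 2 * r * (B ^ 2 / n) + 2 * η := by field_simp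
      _ ≤ 2 * r * η + 2 * η := by
          gcongr
          rw [div_le_iff₀ hn0]
          exact hBn
      _ = (2 * r + 2) * η := by ring
  -- ν bound
  have hnu : ∫ x, ‖Y x - 1‖ ^ 2 ∂ν ≤ 2 * η := by
    have h1 : ∀ x, ‖Y x - 1‖ ^ 2 = (1 / n) ^ 2 * ‖∑ i ∈ range n, (e i x - 1)‖ ^ 2 := by
      intro x
      have : Y x - 1 = (1 / n : ℝ) * ∑ i ∈ range n, (e i x - 1) := by
        rw [hY]
        simp only
        rw [Finset.sum_sub_distrib, Finset.sum_const, card_range, nsmul_eq_mul, mul_one, mul_sub]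
        have hnC : (n : ℂ) ≠ 0 := by exact_mod_cast hn0.ne'
        have : ((1 / n : ℝ) : ℂ) * (n : ℂ) = 1 := by
          push_cast
          field_simp
        rw [this]
      rw [this, norm_mul, mul_pow, Complex.norm_real, Real.norm_of_nonneg (by positivity)]
    simp_rw [h1]
    rw [integral_const_mul]
    have h2 := integral_norm_sq_sum_le ν n (fun i x => e i x - 1)
      (fun i => (hemeas i).sub_const 1) (D := B + 1) (by
        intro i x
        refine (norm_sub_le _ _).trans ?_
        rw [norm_one]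
        have := henorm i x
        linarith)
    have hinte : ∀ i, Integrable (e i) ν := by
      intro i
      apply Integrable.of_bound (C := B) (hemeas i).aestronglyMeasurable
      filter_upwards with x using henorm i x
    have hinte2 : ∀ i, Integrable (fun x => (starRingEnd ℂ) (e i x)) ν := by
      intro i
      apply Integrable.of_bound (C := B)
        (Complex.continuous_conj.measurable.comp (hemeas i)).aestronglyMeasurable
      filter_upwards with x
      show ‖(starRingEnd ℂ) (e i x)‖ ≤ B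
      rw [RCLike.norm_conj]
      exact henorm i x
    have hinte3 : ∀ i j, Integrable (fun x => e i x * (starRingEnd ℂ) (e j x)) ν := by
      intro i j
      apply Integrable.of_bound (C := B * B)
      · exact ((hemeas i).mul (Complex.continuous_conj.measurable.comp (hemeas j))).aestronglyMeasurable
      · filter_upwards with x
        rw [norm_mul, RCLike.norm_conj]
        exact mul_le_mul (henorm i x) (henorm j x) (norm_nonneg _) hB.le
    have hie : ∀ i < n, ∫ x, e i x ∂ν = 1 := by
      intro i hi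
      rw [he]
      simp only
      rw [integral_mul_const, hφ, ← hmn i hi, ← Complex.ofReal_mul, mul_inv_cancel₀ (hm0 i)]
      simp
    have hie2 : ∀ i < n, ∫ x, (starRingEnd ℂ) (e i x) ∂ν = 1 := by
      intro i hi
      rw [integral_conj, hie i hi, map_one]
    have hval : ∀ i < n, ∀ j < n, ∫ x, (e i x - 1) * (starRingEnd ℂ) (e j x - 1) ∂ν
        = (((m i)⁻¹ * (m j)⁻¹ * φ (ξ i - ξ j) - 1 : ℝ) : ℂ) := by
      intro i hi j hj
      have h3 : ∀ x, (e i x - 1) * (starRingEnd ℂ) (e j x - 1)
          = e i x * (starRingEnd ℂ) (e j x) - e i x - (starRingEnd ℂ) (e j x) + 1 := by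
        intro x
        rw [map_sub, map_one]
        ring
      simp_rw [h3]
      have i1 : ∫ x, (e i x * (starRingEnd ℂ) (e j x) - e i x - (starRingEnd ℂ) (e j x) + 1) ∂ν
          = ∫ x, (e i x * (starRingEnd ℂ) (e j x) - e i x - (starRingEnd ℂ) (e j x)) ∂ν
            + ∫ _, (1 : ℂ) ∂ν :=
        integral_add (((hinte3 i j).sub (hinte i)).sub (hinte2 j)) (integrable_const _)
      have i2 : ∫ x, (e i x * (starRingEnd ℂ) (e j x) - e i x - (starRingEnd ℂ) (e j x)) ∂ν
          = ∫ x, (e i x * (starRingEnd ℂ) (e j x) - e i x) ∂ν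
            - ∫ x, (starRingEnd ℂ) (e j x) ∂ν :=
        integral_sub ((hinte3 i j).sub (hinte i)) (hinte2 j)
      have i3 : ∫ x, (e i x * (starRingEnd ℂ) (e j x) - e i x) ∂ν
          = ∫ x, e i x * (starRingEnd ℂ) (e j x) ∂ν - ∫ x, e i x ∂ν :=
        integral_sub (hinte3 i j) (hinte i)
      rw [i1, i2, i3, hie i hi, hie2 j hj]
      simp_rw [hee]
      rw [integral_const_mul, hφ]
      simp
    have h3 : ∑ i ∈ range n, ∑ j ∈ range n,
        ‖∫ x, (e i x - 1) * (starRingEnd ℂ) (e j x - 1) ∂ν‖ ≤ n * B ^ 2 + n ^ 2 * η := by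
      apply sum_diag_off n _ _ (by positivity) (by positivity)
      · intro i hi
        rw [hval i hi i hi, Complex.norm_real, Real.norm_eq_abs, sub_self, hφ0, mul_one]
        have h4 : (m i)⁻¹ * (m i)⁻¹ = |(m i)⁻¹| ^ 2 := by rw [sq_abs]; ring
        have h5 := hminv i
        have h6 : |(m i)⁻¹| ^ 2 ≤ B ^ 2 := by gcongr
        have h7 : 1 ≤ |(m i)⁻¹| ^ 2 := by
          have h8 : |m i| ≤ 1 := by
            rw [hmn i hi]
            have h9 : |φ (ξ i)| = ‖∫ x, Complex.exp (ξ i * x * Complex.I) ∂ν‖ := by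
              rw [hφ, Complex.norm_real, Real.norm_eq_abs]
            rw [h9]
            refine (norm_integral_le_of_norm_le_const (C := 1) ?_).trans ?_
            · filter_upwards with x
              rw [norm_exp_freq]
            · simp
          rw [abs_inv]
          apply one_le_pow₀
          rw [one_le_inv₀ (abs_pos.mpr (hm0 i))]
          exact h8
        rw [h4, abs_of_nonneg (by linarith)]
        linarith
      · intro i hi j hj hij
        rw [hval i hi j hj, Complex.norm_real, Real.norm_eq_abs]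
        have h4 := hcross i hi j hj hij
        rw [← hmn i hi, ← hmn j hj] at h4
        have h5 : (m i)⁻¹ * (m j)⁻¹ * φ (ξ i - ξ j) - 1
            = (m i * m j)⁻¹ * (φ (ξ i - ξ j) - m i * m j) := by
          have := hm0 i
          have := hm0 j
          field_simp
        rw [h5, abs_mul, abs_inv, inv_mul_le_iff₀ (abs_pos.mpr (mul_ne_zero (hm0 i) (hm0 j)))]
        linarith
    have h10 := h2.trans h3
    calc (1 / (n : ℝ)) ^ 2 * ∫ x, ‖∑ i ∈ range n, (e i x - 1)‖ ^ 2 ∂ν
        ≤ (1 / (n : ℝ)) ^ 2 * (n * B ^ 2 + n ^ 2 * η) := by gcongr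
      _ = B ^ 2 / n + η := by field_simp
      _ ≤ η + η := by
          gcongr
          rw [div_le_iff₀ hn0]
          exact hBn
      _ = 2 * η := by ring
  -- bounds on Y
  have hYb : ∀ x, ‖Y x‖ ≤ B := by
    intro x
    rw [hY]
    simp only
    rw [norm_mul, Complex.norm_real, Real.norm_of_nonneg (by positivity)]
    have h1 : ‖∑ i ∈ range n, e i x‖ ≤ n * B := by
      refine (norm_sum_le _ _).trans ?_
      refine (Finset.sum_le_sum (fun i _ => henorm i x)).trans ?_
      rw [Finset.sum_const, card_range, nsmul_eq_mul]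
    calc 1 / (n : ℝ) * ‖∑ i ∈ range n, e i x‖ ≤ 1 / (n : ℝ) * (n * B) := by gcongr
      _ = B := by field_simp
  have hB0 : 0 ≤ B := hB.le
  have c1 := cheb (volume.restrict (Set.Ioc (-r) r)) (g := fun x => ‖Y x‖ ^ 2)
    (hYmeas.norm.pow_const 2) (fun x => by positivity) (D := B ^ 2)
    (fun x => pow_le_pow_left₀ (norm_nonneg _) (hYb x) 2) hvol
  have c2 := cheb ν (g := fun x => ‖Y x - 1‖ ^ 2)
    ((hYmeas.sub_const 1).norm.pow_const 2) (fun x => by positivity) (D := (B + 1) ^ 2)
    (fun x => by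
      apply pow_le_pow_left₀ (norm_nonneg _)
      refine (norm_sub_le _ _).trans ?_
      rw [norm_one]
      have := hYb x
      linarith) hnu
  have hmeasU : MeasurableSet {x | 1 / 4 ≤ ‖Y x‖ ^ 2} :=
    measurableSet_le measurable_const (hYmeas.norm.pow_const 2)
  refine ⟨Set.Ioc (-r) r ∩ {x | 1 / 4 ≤ ‖Y x‖ ^ 2}, measurableSet_Ioc.inter hmeasU, ?_, ?_⟩
  · rw [Measure.restrict_apply hmeasU, Set.inter_comm] at c1
    refine c1.trans (ENNReal.ofReal_le_ofReal ?_)
    linarith
  · rw [Set.compl_inter]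
    have hsub : {x | 1 / 4 ≤ ‖Y x‖ ^ 2}ᶜ ⊆ {x | 1 / 4 ≤ ‖Y x - 1‖ ^ 2} := by
      intro x hx
      simp only [Set.mem_compl_iff, Set.mem_ofPred_eq, not_le] at hx ⊢
      have h1 : ‖Y x‖ < 1 / 2 := by
        by_contra hcon
        push Not at hcon
        nlinarith
      have h2 : (1 : ℝ) ≤ ‖Y x‖ + ‖Y x - 1‖ := by
        have : (1 : ℂ) = Y x - (Y x - 1) := by ring
        calc (1 : ℝ) = ‖(1 : ℂ)‖ := by simp
          _ = ‖Y x - (Y x - 1)‖ := by rw [← this]
          _ ≤ _ := norm_sub_le _ _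
      have h3 : 1 / 2 ≤ ‖Y x - 1‖ := by linarith
      nlinarith
    refine (measure_union_le _ _).trans ?_
    rw [hsupp, zero_add]
    refine (measure_mono hsub).trans (c2.trans (ENNReal.ofReal_le_ofReal ?_))
    nlinarith

end Vale.P105
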