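import Vale.Agent.P105.Step

namespace Vale.P105

open Finset

variable {β : ℝ} {σ : ℂ}

lemma norm_zpow_two_mul_le (hσ : ‖σ‖ = 1) (h : ℕ) :
    ‖σ ^ (2 * (h : ℤ)) - 1‖ ≤ 2 * ‖σ ^ h - 1‖ := by
  have := norm_pow_mul_sub_one_le hσ h 2
  have e : σ ^ (2 * (h : ℤ)) = σ ^ (h * 2) := by
    rw [mul_comm 2 (h : ℤ)]
    exact_mod_cast zpow_natCast σ (h * 2)
  rw [e]
  exact_mod_cast this

lemma st_next (hβ : 2 ≤ β ^ 2) (hβ0 : 0 < β) (hσ : ‖σ‖ = 1) {c L S A : ℝ} {w : ℤ} {C : ℂ}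
    (hL : 120 ≤ L) (hst : St β σ c L S A w C) :
    ∃ L' A' : ℝ, ∃ w' : ℤ, ∃ C' : ℂ, 2.2 * L ≤ L' ∧ St β σ c L' (2.05 * S + 1476) A' w' C' := by
  obtain ⟨W, rfl⟩ : ∃ W : ℕ, w = (W : ℤ) := ⟨w.toNat, by have := hst.hw0; omega⟩
  have hW1 : 1 ≤ W := by have := hst.hw0; omega
  have hW : (W : ℝ) ≤ Real.exp (3 / 4 * L) := by exact_mod_cast hst.hw
  set E := Real.exp (2 * L) with hE
  have hE4 : 4 ≤ E := by
    have := Real.add_one_le_exp (2 * L)
    linarith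
  have hE0 : 0 < E := by linarith
  set Q := ⌊E / 2⌋₊ with hQ
  have hQle : (Q : ℝ) ≤ E / 2 := Nat.floor_le (by linarith)
  have hQge : E / 4 ≤ Q := by
    have := Nat.lt_floor_add_one (E / 2)
    linarith
  have hQ0 : 0 < Q := by
    have : (0 : ℝ) < Q := by linarith
    exact_mod_cast this
  have hQ0' : (0 : ℝ) < Q := by exact_mod_cast hQ0
  obtain ⟨q, h, hq1, hqQ, hNh, hhN, hbd⟩ := exists_exponent hσ hQ0 (2 * W)
  have hq0 : (0 : ℝ) < q := by exact_mod_cast (by omega : 0 < q)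
  have hinvQ : 7 / (Q : ℝ) ≤ 28 / E := by
    rw [div_le_div_iff₀ hQ0' hE0]
    linarith
  have hW' : (1 : ℝ) ≤ W := by exact_mod_cast hW1
  have h2h := norm_zpow_two_mul_le hσ h
  have hqQ' : (q : ℝ) ≤ Q := by exact_mod_cast hqQ
  have hEinv : 1 / E = Real.exp (-(2 * L)) := by rw [Real.exp_neg, hE, one_div]
  rcases le_or_gt (2 * W) q with hcase | hcase
  · -- large `q`
    have hNq : ((2 * W : ℕ) : ℝ) / q ≤ 1 := by
      rw [div_le_one hq0]
      exact_mod_cast hcase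
    have h1 : ‖σ ^ h - 1‖ ≤ 56 / E := by
      refine hbd.trans ?_
      calc (((2 * W : ℕ) : ℝ) / q + 1) * (7 / (Q : ℝ)) ≤ (1 + 1) * (28 / E) := by gcongr
        _ = 56 / E := by ring
    have h2 : ‖σ ^ (2 * (h : ℤ)) - 1‖ ≤ 112 / E := by
      refine h2h.trans ?_
      calc 2 * ‖σ ^ h - 1‖ ≤ 2 * (56 / E) := by gcongr
        _ = 112 / E := by ring
    have hhE : (h : ℝ) ≤ E := by
      have : h ≤ 2 * Q := by omega
      have : (h : ℝ) ≤ 2 * Q := by exact_mod_cast this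
      linarith
    refine ⟨2.9 * L, _, _, _, by nlinarith, st_step hβ hβ0 hσ (by linarith) hst (n := h) ?_ ?_
      (L' := 2.9 * L) (by linarith) ?_ ?_⟩
    · omega
    · exact_mod_cast hhE
    · have h112 : (112 : ℝ) ≤ Real.exp (0.1 * L) := by
        have h3 : Real.exp (0.1 * L) = Real.exp (0.1 * L / 3) ^ 3 := by
          rw [← Real.exp_nat_mul]; congr 1; push_cast; ring
        have h4 := Real.add_one_le_exp (0.1 * L / 3)
        rw [h3]
        have h5 : (5 : ℝ) ≤ Real.exp (0.1 * L / 3) := by linarith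
        calc (112 : ℝ) ≤ 5 ^ 3 := by norm_num
          _ ≤ Real.exp (0.1 * L / 3) ^ 3 := by gcongr
      calc Real.exp (-L) * ‖σ ^ (2 * (h : ℤ)) - 1‖ ≤ Real.exp (-L) * (112 / E) := by gcongr
        _ = 112 * (Real.exp (-L) * (1 / E)) := by ring
        _ = 112 * Real.exp (-3 * L) := by rw [hEinv, ← Real.exp_add]; congr 2; ring
        _ ≤ Real.exp (0.1 * L) * Real.exp (-3 * L) := by gcongr
        _ = Real.exp (-(2.9 * L)) := by rw [← Real.exp_add]; congr 1; ring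
    · push_cast
      have h3 : Real.exp (3 / 4 * L) ≤ E := by
        rw [hE]; apply Real.exp_le_exp.mpr; linarith
      have h4 : (3 : ℝ) ≤ Real.exp (0.175 * L) := by
        have := Real.add_one_le_exp (0.175 * L)
        linarith
      calc (W : ℝ) + 2 * h ≤ E + 2 * E := by linarith
        _ = 3 * E := by ring
        _ ≤ Real.exp (0.175 * L) * E := by gcongr
        _ = Real.exp (3 / 4 * (2.9 * L)) := by rw [hE, ← Real.exp_add]; congr 1; ring
  · -- small `q`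
    have hh : h ≤ 4 * W := by omega
    have hh' : (h : ℝ) ≤ 4 * W := by exact_mod_cast hh
    have hNq : ((2 * W : ℕ) : ℝ) / q + 1 ≤ 4 * W := by
      have : ((2 * W : ℕ) : ℝ) / q ≤ ((2 * W : ℕ) : ℝ) := by
        apply div_le_self (by positivity)
        exact_mod_cast hq1
      push_cast at this ⊢
      linarith
    have h1 : ‖σ ^ h - 1‖ ≤ 112 * W / E := by
      refine hbd.trans ?_
      calc (((2 * W : ℕ) : ℝ) / q + 1) * (7 / (Q : ℝ)) ≤ (4 * W) * (28 / E) := by gcongr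
        _ = 112 * W / E := by ring
    have h2 : ‖σ ^ (2 * (h : ℤ)) - 1‖ ≤ 224 * W / E := by
      refine h2h.trans ?_
      calc 2 * ‖σ ^ h - 1‖ ≤ 2 * (112 * W / E) := by gcongr
        _ = 224 * W / E := by ring
    refine ⟨2.2 * L, _, _, _, le_refl _, st_step hβ hβ0 hσ (by linarith) hst (n := h) ?_ ?_
      (L' := 2.2 * L) (by linarith) ?_ ?_⟩
    · omega
    · have h4 : (4 : ℝ) ≤ Real.exp (5 / 4 * L) := by
        have := Real.add_one_le_exp (5 / 4 * L)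
        linarith
      push_cast
      calc (h : ℝ) ≤ 4 * Real.exp (3 / 4 * L) := by linarith
        _ ≤ Real.exp (5 / 4 * L) * Real.exp (3 / 4 * L) := by gcongr
        _ = Real.exp (2 * L) := by rw [← Real.exp_add]; congr 1; ring
    · have h224 : (224 : ℝ) ≤ Real.exp (0.05 * L) := by
        have h3 : Real.exp 6 ≤ Real.exp (0.05 * L) := by
          apply Real.exp_le_exp.mpr; linarith
        refine le_trans ?_ h3
        have h4 : Real.exp 6 = Real.exp 1 ^ 6 := by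
          rw [← Real.exp_nat_mul]; norm_num
        rw [h4]
        have h5 : (2.7 : ℝ) ≤ Real.exp 1 := by linarith [Real.exp_one_gt_d9]
        calc (224 : ℝ) ≤ 2.7 ^ 6 := by norm_num
          _ ≤ Real.exp 1 ^ 6 := by gcongr
      calc Real.exp (-L) * ‖σ ^ (2 * (h : ℤ)) - 1‖ ≤ Real.exp (-L) * (224 * W / E) := by gcongr
        _ ≤ Real.exp (-L) * (224 * Real.exp (3 / 4 * L) / E) := by gcongr
        _ = 224 * (Real.exp (-L) * Real.exp (3 / 4 * L) * (1 / E)) := by ring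
        _ = 224 * Real.exp (-2.25 * L) := by
            rw [hEinv, ← Real.exp_add, ← Real.exp_add]; congr 2; ring
        _ ≤ Real.exp (0.05 * L) * Real.exp (-2.25 * L) := by gcongr
        _ = Real.exp (-(2.2 * L)) := by rw [← Real.exp_add]; congr 1; ring
    · push_cast
      have h4 : (9 : ℝ) ≤ Real.exp (0.9 * L) := by
        have := Real.add_one_le_exp (0.9 * L)
        linarith
      calc (W : ℝ) + 2 * h ≤ 9 * Real.exp (3 / 4 * L) := by linarith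
        _ ≤ Real.exp (0.9 * L) * Real.exp (3 / 4 * L) := by gcongr
        _ = Real.exp (3 / 4 * (2.2 * L)) := by rw [← Real.exp_add]; congr 1; ring

lemma st_iter (hβ : 2 ≤ β ^ 2) (hβ0 : 0 < β) (hσ : ‖σ‖ = 1) {c L₀ S₀ A₀ : ℝ} {w₀ : ℤ} {C₀ : ℂ}
    (hL : 120 ≤ L₀) (hst : St β σ c L₀ S₀ A₀ w₀ C₀) (r : ℕ) :
    ∃ L S A : ℝ, ∃ w : ℤ, ∃ C : ℂ, 2.2 ^ r * L₀ ≤ L ∧ S + 1406 ≤ 2.05 ^ r * (S₀ + 1406) ∧
      St β σ c L S A w C := by
  induction r with
  | zero => exact ⟨L₀, S₀, A₀, w₀, C₀, by simp, by simp, hst⟩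
  | succ r ih =>
    obtain ⟨L, S, A, w, C, h1, h2, h3⟩ := ih
    have h4 : (1 : ℝ) ≤ 2.2 ^ r := one_le_pow₀ (by norm_num)
    have hL' : 120 ≤ L := by nlinarith
    obtain ⟨L', A', w', C', h5, h6⟩ := st_next hβ hβ0 hσ hL' h3
    refine ⟨L', 2.05 * S + 1476, A', w', C', ?_, ?_, h6⟩
    · rw [pow_succ]; linarith
    · rw [pow_succ]; linarith

/-- There are states whose `L` is as large as we want compared to `S`. -/
lemma st_ratio (hβ : 2 ≤ β ^ 2) (hβ0 : 0 < β) (hσ : ‖σ‖ = 1) {c L₀ S₀ A₀ : ℝ} {w₀ : ℤ} {C₀ : ℂ}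
    (hL : 120 ≤ L₀) (hst : St β σ c L₀ S₀ A₀ w₀ C₀) (R : ℝ) :
    ∃ L S A : ℝ, ∃ w : ℤ, ∃ C : ℂ, R ≤ L ∧ R * (S + 1406) ≤ L ∧ 120 ≤ L ∧ 0 ≤ S ∧
      St β σ c L S A w C := by
  have hS₀ : 0 ≤ S₀ := by
    have := hst.sum ∅ (by simp)
    simpa using this
  have ht : Filter.Tendsto (fun r : ℕ => ((2.2 : ℝ) / 2.05) ^ r) Filter.atTop Filter.atTop :=
    tendsto_pow_atTop_atTop_of_one_lt (by norm_num)
  obtain ⟨r, hr⟩ := (ht.eventually (Filter.eventually_ge_atTop (|R| * (S₀ + 1406)))).exists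
  obtain ⟨L, S, A, w, C, h1, h2, h3⟩ := st_iter hβ hβ0 hσ hL hst r
  have hS : 0 ≤ S := by
    have := h3.sum ∅ (by simp)
    simpa using this
  have h205 : (0 : ℝ) < 2.05 ^ r := by positivity
  have h205' : (1 : ℝ) ≤ 2.05 ^ r := one_le_pow₀ (by norm_num)
  have h22 : (1 : ℝ) ≤ 2.2 ^ r := one_le_pow₀ (by norm_num)
  have key : |R| * (S + 1406) ≤ L := by
    rw [div_pow] at hr
    have hr' : |R| * (S₀ + 1406) * 2.05 ^ r ≤ 2.2 ^ r := by
      rwa [le_div_iff₀ h205] at hr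
    have h5 : |R| * (S + 1406) ≤ |R| * (2.05 ^ r * (S₀ + 1406)) := by gcongr
    have h6 : (2.2 : ℝ) ^ r ≤ 2.2 ^ r * L₀ := by nlinarith
    linarith
  have hR := le_abs_self R
  have hR0 := abs_nonneg R
  refine ⟨L, S, A, w, C, ?_, ?_, ?_, hS, h3⟩
  · nlinarith
  · nlinarith
  · nlinarith

end Vale.P105
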