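import Vale.Agent.P105.Main

namespace Vale.P105

open MeasureTheory Finset Filter Topology

/-- Core theorem. -/
theorem singular_core {β : ℝ} {σ : ℂ} (hβ : 2 ≤ β ^ 2) (hβ0 : 0 < β) (hσ : ‖σ‖ = 1)
    (hi : IsIntegral ℤ β) (hi' : IsIntegral ℤ β⁻¹)
    (htr : ∀ j : ℤ, ∃ m : ℤ, β ^ j + β ^ (-j) + 2 * (σ ^ j).re = m) :
    (bernoulliConv β⁻¹).MutuallySingular volume := by
  have hβ1 : (7 : ℝ) / 5 ≤ β := by nlinarith
  have hl0 : 0 ≤ β⁻¹ := by positivity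
  have hl1 : β⁻¹ < 1 := inv_lt_one_of_one_lt₀ (by linarith)
  have := isProb hl0 hl1
  have hpos : 0 < (1 - β⁻¹)⁻¹ := by
    apply inv_pos.mpr; linarith
  apply singular_of_freq (bernoulliConv β⁻¹) (r := (1 - β⁻¹)⁻¹ + 1) (by positivity) _ (ch β⁻¹)
    (fun t => integral_exp hl0 hl1 t)
  · intro η hη0 hη1
    exact exists_freq hβ hβ0 hσ hi hi' htr (tendsto_ch hl0 hl1) hη0 hη1
  · apply measure_mono_null _ (support_bernoulliConv hl0 hl1)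
    apply Set.compl_subset_compl.mpr
    intro x hx
    rw [Set.mem_Icc] at hx
    rw [Set.mem_Ioc]
    constructor <;> linarith [hx.1, hx.2]

section trace

variable {β t t' : ℝ} {σ : ℂ} {a b : ℤ}

lemma u_rec (hβ0 : β ≠ 0) (n : ℕ) :
    β ^ (((n + 2 : ℕ)) : ℤ) + β ^ (-(((n + 2 : ℕ)) : ℤ)) =
      (β + β⁻¹) * (β ^ (((n + 1 : ℕ)) : ℤ) + β ^ (-(((n + 1 : ℕ)) : ℤ)))
        - (β ^ ((n : ℕ) : ℤ) + β ^ (-((n : ℕ) : ℤ))) := by
  simp only [zpow_neg, zpow_natCast]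
  field_simp
  ring

lemma v_rec (hσ : ‖σ‖ = 1) (n : ℕ) :
    2 * (σ ^ (n + 2)).re = (2 * σ.re) * (2 * (σ ^ (n + 1)).re) - 2 * (σ ^ n).re := by
  have h1 : σ * (starRingEnd ℂ) σ = 1 := by
    rw [Complex.mul_conj, Complex.normSq_eq_norm_sq, hσ]; norm_num
  have h2 : σ + (starRingEnd ℂ) σ = ((2 * σ.re : ℝ) : ℂ) := Complex.add_conj σ
  have h3 : σ ^ (n + 2) = ((2 * σ.re : ℝ) : ℂ) * σ ^ (n + 1) - σ ^ n := by
    rw [← h2]
    calc σ ^ (n + 2) = σ ^ (n + 2) + (σ * (starRingEnd ℂ) σ - 1) * σ ^ n := by rw [h1]; ring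
      _ = _ := by ring
  rw [h3, Complex.sub_re, Complex.re_ofReal_mul]
  ring

lemma trace_nat (hβ0 : β ≠ 0) (hσ : ‖σ‖ = 1) (h1 : (β + β⁻¹) + 2 * σ.re = a)
    (h2 : (β + β⁻¹) * (2 * σ.re) = b) (n : ℕ) :
    (∃ m : ℤ, β ^ (n : ℤ) + β ^ (-(n : ℤ)) + 2 * (σ ^ n).re = m) ∧
    (∃ m : ℤ, (β + β⁻¹) * (β ^ (n : ℤ) + β ^ (-(n : ℤ))) + (2 * σ.re) * (2 * (σ ^ n).re) = m) := by
  have key : ∀ n : ℕ, ((∃ m : ℤ, β ^ (n : ℤ) + β ^ (-(n : ℤ)) + 2 * (σ ^ n).re = m) ∧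
    (∃ m : ℤ, (β + β⁻¹) * (β ^ (n : ℤ) + β ^ (-(n : ℤ))) + (2 * σ.re) * (2 * (σ ^ n).re) = m)) ∧
    ((∃ m : ℤ, β ^ ((n + 1 : ℕ) : ℤ) + β ^ (-((n + 1 : ℕ) : ℤ)) + 2 * (σ ^ (n + 1)).re = m) ∧
    (∃ m : ℤ, (β + β⁻¹) * (β ^ ((n + 1 : ℕ) : ℤ) + β ^ (-((n + 1 : ℕ) : ℤ)))
      + (2 * σ.re) * (2 * (σ ^ (n + 1)).re) = m)) := by
    intro n
    induction n with
    | zero =>
      refine ⟨⟨⟨4, ?_⟩, ⟨2 * a, ?_⟩⟩, ⟨⟨a, ?_⟩, ⟨a ^ 2 - 2 * b, ?_⟩⟩⟩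
      · norm_num
      · push_cast
        rw [← h1]
        simp
        ring
      · rw [← h1]
        simp
      · push_cast
        rw [← h1, ← h2]
        simp
        ring
    | succ n ih =>
      refine ⟨ih.2, ?_⟩
      obtain ⟨⟨⟨p0, hp0⟩, ⟨q0, hq0⟩⟩, ⟨⟨p1, hp1⟩, ⟨q1, hq1⟩⟩⟩ := ih
      have hu := u_rec hβ0 n
      have hv := v_rec hσ n
      refine ⟨⟨q1 - p0, ?_⟩, ⟨a * q1 - b * p1 - q0, ?_⟩⟩
      · rw [hu, hv]
        push_cast at *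
        linarith
      · rw [hu, hv]
        push_cast at *
        rw [← hq1, ← hp1, ← hq0, ← h1, ← h2]
        ring
  exact (key n).1

lemma trace_int (hβ0 : β ≠ 0) (hσ : ‖σ‖ = 1) (h1 : (β + β⁻¹) + 2 * σ.re = a)
    (h2 : (β + β⁻¹) * (2 * σ.re) = b) (j : ℤ) :
    ∃ m : ℤ, β ^ j + β ^ (-j) + 2 * (σ ^ j).re = m := by
  rcases Int.eq_nat_or_neg j with ⟨n, rfl | rfl⟩
  · have := (trace_nat hβ0 hσ h1 h2 n).1
    rw [zpow_natCast σ n]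
    exact this
  · obtain ⟨m, hm⟩ := (trace_nat hβ0 hσ h1 h2 n).1
    refine ⟨m, ?_⟩
    rw [← hm, neg_neg]
    have : (σ ^ (-(n : ℤ))).re = (σ ^ n).re := by
      rw [zpow_neg, zpow_natCast, ← inv_pow, Complex.inv_eq_conj hσ, ← map_pow, Complex.conj_re]
    rw [this]
    ring

end trace

lemma quartic_integral {x : ℝ} {a b : ℤ} (h : x ^ 4 - a * x ^ 3 + (b + 2) * x ^ 2 - a * x + 1 = 0) :
    IsIntegral ℤ x := by
  refine ⟨Polynomial.X ^ 4 - Polynomial.C a * Polynomial.X ^ 3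
    + Polynomial.C (b + 2) * Polynomial.X ^ 2 - Polynomial.C a * Polynomial.X + 1, ?_, ?_⟩
  · monicity!
  · simp only [Polynomial.eval₂_add, Polynomial.eval₂_sub, Polynomial.eval₂_mul,
      Polynomial.eval₂_C, Polynomial.eval₂_X_pow, Polynomial.eval₂_X, Polynomial.eval₂_one]
    push_cast
    simpa using h

theorem singular_of_quartic {β : ℝ} {σ : ℂ} {a b : ℤ} (hβ : 1 < β) (hσ : ‖σ‖ = 1)
    (hσ1 : σ.re ≠ 1) (h1 : (β + β⁻¹) + 2 * σ.re = a) (h2 : (β + β⁻¹) * (2 * σ.re) = b) :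
    (bernoulliConv β⁻¹).MutuallySingular volume := by
  have hβ0 : 0 < β := by linarith
  have ht2 : 2 < β + β⁻¹ := by
    have : (β - 1) ^ 2 / β > 0 := by
      have : 0 < (β - 1) ^ 2 := by
        apply pow_pos; linarith
      positivity
    have h3 : (β - 1) ^ 2 / β = β + β⁻¹ - 2 := by field_simp; ring
    linarith
  have hre : |σ.re| ≤ 1 := by
    have := Complex.abs_re_le_norm σ
    rwa [hσ] at this
  have hre1 := abs_le.mp hre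
  have hsq : 2 ≤ β ^ 2 := by
    have h3 : (((β + β⁻¹) - 2) * (2 - 2 * σ.re)) = ((2 * a - 4 - b : ℤ) : ℝ) := by
      push_cast; rw [← h1, ← h2]; ring
    have h4 : 0 < ((β + β⁻¹) - 2) * (2 - 2 * σ.re) := by
      apply mul_pos (by linarith)
      have : σ.re < 1 := lt_of_le_of_ne hre1.2 hσ1
      linarith
    rw [h3] at h4
    have h5 : (1 : ℤ) ≤ 2 * a - 4 - b := by
      have : (0 : ℤ) < 2 * a - 4 - b := by exact_mod_cast h4
      omega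
    have h6 : (1 : ℝ) ≤ ((β + β⁻¹) - 2) * (2 - 2 * σ.re) := by rw [h3]; exact_mod_cast h5
    have h7 : 1 / 4 ≤ (β + β⁻¹) - 2 := by nlinarith
    have h8 : β * β⁻¹ = 1 := mul_inv_cancel₀ hβ0.ne'
    have h9 : 9 / 4 * β ≤ β ^ 2 + 1 := by nlinarith
    by_contra hcon
    push Not at hcon
    have h10 : β < 4 / 3 := by linarith
    nlinarith
  have hi : IsIntegral ℤ β := by
    apply quartic_integral (a := a) (b := b)
    rw [← h1, ← h2]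
    field_simp
    ring
  have hi' : IsIntegral ℤ β⁻¹ := by
    apply quartic_integral (a := a) (b := b)
    rw [← h1, ← h2]
    field_simp
    ring
  exact singular_core hsq hβ0 hσ hi hi' (trace_int hβ0.ne' hσ h1 h2)

end Vale.P105
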