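import Vale.Agent.P105.Quartic

namespace Vale.P105

open Polynomial MeasureTheory

lemma aeval_conj_eq_zero {p : ℚ[X]} {z : ℂ} (h : aeval z p = 0) :
    aeval ((starRingEnd ℂ) z) p = 0 := by
  rw [aeval_def] at h ⊢
  have h1 := Polynomial.hom_eval₂ p (algebraMap ℚ ℂ) (starRingEnd ℂ) z
  rw [h, map_zero] at h1
  have h2 : (starRingEnd ℂ).comp (algebraMap ℚ ℂ) = algebraMap ℚ ℂ := Subsingleton.elim _ _
  rw [h2] at h1
  exact h1.symm

lemma aeval_reverse {K : Type*} [Field K] [Algebra ℚ K] {p : ℚ[X]} {x : K} (hx : x ≠ 0) :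
    aeval x⁻¹ p.reverse = 0 ↔ aeval x p = 0 := by
  let _ := invertibleOfNonzero hx
  have := eval₂_reverse_eq_zero_iff (algebraMap ℚ K) x p
  rw [invOf_eq_inv] at this
  exact this

lemma eq_one_or_of_real {z : ℂ} (hz : ‖z‖ = 1) (him : z.im = 0) : z = 1 ∨ z = -1 := by
  have h1 : z = (z.re : ℂ) := by
    apply Complex.ext <;> simp [him]
  have h2 : |z.re| = 1 := by
    rw [h1] at hz
    rwa [Complex.norm_real, Real.norm_eq_abs] at hz
  rcases abs_eq (by norm_num : (0 : ℝ) ≤ 1) |>.mp h2 with h | h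
  · left; rw [h1, h]; simp
  · right; rw [h1, h]; simp

lemma coeff3 (p q : ℂ) : ((Polynomial.X : ℂ[X]) ^ 4 - Polynomial.C p * Polynomial.X ^ 3
    + Polynomial.C q * Polynomial.X ^ 2 - Polynomial.C p * Polynomial.X + 1).coeff 3 = -p := by
  simp [Polynomial.coeff_X, Polynomial.coeff_one, Polynomial.coeff_X_pow]

lemma coeff2 (p q : ℂ) : ((Polynomial.X : ℂ[X]) ^ 4 - Polynomial.C p * Polynomial.X ^ 3
    + Polynomial.C q * Polynomial.X ^ 2 - Polynomial.C p * Polynomial.X + 1).coeff 2 = q := by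
  simp [Polynomial.coeff_X, Polynomial.coeff_one, Polynomial.coeff_X_pow]

theorem salem4_data {β : ℝ} (hS : IsSalem β) (hd : (minpoly ℚ β).natDegree = 4) :
    ∃ (σ : ℂ) (a b : ℤ), ‖σ‖ = 1 ∧ σ.re ≠ 1 ∧ (β + β⁻¹) + 2 * σ.re = a ∧
      (β + β⁻¹) * (2 * σ.re) = b := by
  obtain ⟨h1, hi, -, z, hz, hzn⟩ := hS
  have hβ0 : 0 < β := by linarith
  have hiQ : IsIntegral ℚ β := hi.tower_top
  have hirr : Irreducible (minpoly ℚ β) := minpoly.irreducible hiQ
  have hmonic : (minpoly ℚ β).Monic := minpoly.monic hiQ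
  have hzc := aeval_conj_eq_zero hz
  have hz0 : z ≠ 0 := by
    intro h; rw [h, norm_zero] at hzn; norm_num at hzn
  have hzc0 : (starRingEnd ℂ) z ≠ 0 := by
    intro h; rw [map_eq_zero] at h; exact hz0 h
  have hinv : ((starRingEnd ℂ) z)⁻¹ = z := by
    rw [← Complex.inv_eq_conj hzn, inv_inv]
  have hrev : aeval z (minpoly ℚ β).reverse = 0 := by
    have := (aeval_reverse (p := minpoly ℚ β) hzc0).mpr hzc
    rwa [hinv] at this
  have hminz : minpoly ℚ β = minpoly ℚ z := minpoly.eq_of_irreducible_of_monic hirr hz hmonic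
  have hdvd : minpoly ℚ β ∣ (minpoly ℚ β).reverse := by
    have := minpoly.dvd ℚ z hrev
    rwa [← hminz] at this
  have hβrev : aeval β (minpoly ℚ β).reverse = 0 := by
    obtain ⟨q, hq⟩ := hdvd
    rw [hq, map_mul, minpoly.aeval, zero_mul]
  have hβinv : aeval β⁻¹ (minpoly ℚ β) = 0 := by
    rw [← aeval_reverse (inv_ne_zero hβ0.ne'), inv_inv]
    exact hβrev
  have him : z.im ≠ 0 := by
    intro him
    have h2 : (minpoly ℚ z).natDegree = 1 := by
      rw [minpoly.natDegree_eq_one_iff]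
      rcases eq_one_or_of_real hzn him with h | h
      · exact ⟨1, by simp [h]⟩
      · exact ⟨-1, by simp [h]⟩
    rw [← hminz, hd] at h2
    norm_num at h2
  have hre1 : z.re ≠ 1 := by
    intro hre
    apply him
    have h2 : Complex.normSq z = 1 := by rw [Complex.normSq_eq_norm_sq, hzn]; norm_num
    rw [Complex.normSq_apply, hre] at h2
    have : z.im * z.im = 0 := by linarith
    exact mul_self_eq_zero.mp this
  -- all roots
  set Pc : ℂ[X] := (minpoly ℚ β).map (algebraMap ℚ ℂ) with hPc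
  have hPm : Pc.Monic := hmonic.map _
  have hPd : Pc.natDegree = 4 := by rw [hPc, natDegree_map]; exact hd
  have hroot : ∀ x : ℂ, aeval x (minpoly ℚ β) = 0 → x ∈ Pc.roots := by
    intro x hx
    rw [mem_roots hPm.ne_zero, IsRoot.def, hPc, eval_map]
    exact hx
  have hβC : ∀ x : ℝ, aeval x (minpoly ℚ β) = 0 → aeval (x : ℂ) (minpoly ℚ β) = 0 := by
    intro x hx
    have := Polynomial.aeval_algebraMap_apply ℂ x (minpoly ℚ β)
    rw [hx, map_zero] at this
    exact this
  have hinvlt : β⁻¹ < 1 := inv_lt_one_of_one_lt₀ h1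
  have hinvpos : 0 < β⁻¹ := by positivity
  obtain ⟨g, hg⟩ : ∃ g : ℂ, g = ((β⁻¹ : ℝ) : ℂ) := ⟨_, rfl⟩
  obtain ⟨B, hB⟩ : ∃ B : ℂ, B = (β : ℂ) := ⟨_, rfl⟩
  obtain ⟨y, hy⟩ : ∃ y : ℂ, y = (starRingEnd ℂ) z := ⟨_, rfl⟩
  have n1 : ‖B‖ = β := by rw [hB, Complex.norm_real, Real.norm_of_nonneg hβ0.le]
  have n2 : ‖g‖ = β⁻¹ := by rw [hg, Complex.norm_real, Real.norm_of_nonneg hinvpos.le]
  have n3 : ‖y‖ = 1 := by rw [hy, RCLike.norm_conj, hzn]
  have d1 : B ≠ g := by
    intro h; have := congrArg norm h; rw [n1, n2] at this; linarith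
  have d2 : B ≠ z := by
    intro h; have := congrArg norm h; rw [n1, hzn] at this; linarith
  have d3 : B ≠ y := by
    intro h; have := congrArg norm h; rw [n1, n3] at this; linarith
  have d4 : g ≠ z := by
    intro h; have := congrArg norm h; rw [n2, hzn] at this; linarith
  have d5 : g ≠ y := by
    intro h; have := congrArg norm h; rw [n2, n3] at this; linarith
  have d6 : z ≠ y := by
    intro h
    have := congrArg Complex.im h
    rw [hy, Complex.conj_im] at this
    apply him; linarith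
  have hBg : B * g = 1 := by
    rw [hB, hg, ← Complex.ofReal_mul, mul_inv_cancel₀ hβ0.ne', Complex.ofReal_one]
  have hzy : z * y = 1 := by
    rw [hy, Complex.mul_conj, Complex.normSq_eq_norm_sq, hzn]; norm_num
  set s : Multiset ℂ := {B, g, z, y} with hs
  have hsnd : s.Nodup := by
    rw [hs]
    simp [d1, d2, d3, d4, d5, d6]
  have hsle : s ≤ Pc.roots := by
    rw [Multiset.le_iff_subset hsnd]
    intro x hx
    rw [hs] at hx
    simp only [Multiset.insert_eq_cons, Multiset.mem_cons, Multiset.mem_singleton] at hx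
    rcases hx with h | h | h | h
    · rw [h, hB]; exact hroot _ (hβC _ (minpoly.aeval ℚ β))
    · rw [h, hg]; exact hroot _ (hβC _ hβinv)
    · rw [h]; exact hroot _ hz
    · rw [h, hy]; exact hroot _ hzc
  have hdv := (Multiset.prod_X_sub_C_dvd_iff_le_roots hPm.ne_zero s).mpr hsle
  have hprod : (s.map fun a => (Polynomial.X : ℂ[X]) - Polynomial.C a).prod
      = Polynomial.X ^ 4 - Polynomial.C (B + g + (z + y)) * Polynomial.X ^ 3
        + Polynomial.C (2 + (B + g) * (z + y)) * Polynomial.X ^ 2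
        - Polynomial.C (B + g + (z + y)) * Polynomial.X + 1 := by
    rw [hs]
    simp only [Multiset.insert_eq_cons, Multiset.map_cons, Multiset.map_singleton,
      Multiset.prod_cons, Multiset.prod_singleton]
    have e1 : (Polynomial.X - Polynomial.C B) * (Polynomial.X - Polynomial.C g)
        = Polynomial.X ^ 2 - Polynomial.C (B + g) * Polynomial.X + 1 := by
      rw [← Polynomial.C_1, ← hBg]
      simp only [Polynomial.C_add, Polynomial.C_mul]
      ring
    have e2 : (Polynomial.X - Polynomial.C z) * (Polynomial.X - Polynomial.C y)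
        = Polynomial.X ^ 2 - Polynomial.C (z + y) * Polynomial.X + 1 := by
      rw [← Polynomial.C_1, ← hzy]
      simp only [Polynomial.C_add, Polynomial.C_mul]
      ring
    calc (Polynomial.X - Polynomial.C B) * ((Polynomial.X - Polynomial.C g) *
          ((Polynomial.X - Polynomial.C z) * (Polynomial.X - Polynomial.C y)))
        = ((Polynomial.X - Polynomial.C B) * (Polynomial.X - Polynomial.C g)) *
          ((Polynomial.X - Polynomial.C z) * (Polynomial.X - Polynomial.C y)) := by ring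
      _ = _ := by
        rw [e1, e2]
        have e3 : (Polynomial.C (2 + (B + g) * (z + y)) : ℂ[X])
            = 2 + Polynomial.C (B + g) * Polynomial.C (z + y) := by
          rw [Polynomial.C_add, Polynomial.C_mul]
          congr 1
        have e4 : (Polynomial.C (B + g + (z + y)) : ℂ[X])
            = Polynomial.C (B + g) + Polynomial.C (z + y) := Polynomial.C_add
        rw [e3, e4]
        ring
  have hmonicp : (s.map fun a => (Polynomial.X : ℂ[X]) - Polynomial.C a).prod.Monic :=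
    monic_multiset_prod_of_monic _ _ (fun a _ => monic_X_sub_C a)
  have hdegp : (s.map fun a => (Polynomial.X : ℂ[X]) - Polynomial.C a).prod.natDegree = 4 := by
    rw [natDegree_multiset_prod_X_sub_C_eq_card]
    rfl
  have heq := eq_of_monic_of_dvd_of_natDegree_le hmonicp hPm hdv (by rw [hPd, hdegp])
  rw [hprod] at heq
  have c3 : Pc.coeff 3 = -(B + g + (z + y)) := by
    rw [heq, coeff3]
  have c2 : Pc.coeff 2 = 2 + (B + g) * (z + y) := by
    rw [heq, coeff2]
  have hint : ∀ k, Pc.coeff k = (((minpoly ℤ β).coeff k : ℤ) : ℂ) := by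
    intro k
    rw [hPc, minpoly.isIntegrallyClosed_eq_field_fractions' ℚ hi, Polynomial.map_map,
      Polynomial.coeff_map]
    simp
  have hzyre : z + y = ((2 * z.re : ℝ) : ℂ) := by rw [hy]; exact Complex.add_conj z
  have hBgre : B + g = ((β + β⁻¹ : ℝ) : ℂ) := by rw [hB, hg]; push_cast; ring
  refine ⟨z, -(minpoly ℤ β).coeff 3, (minpoly ℤ β).coeff 2 - 2, hzn, hre1, ?_, ?_⟩
  · rw [hint 3, hzyre, hBgre] at c3
    have : (((minpoly ℤ β).coeff 3 : ℤ) : ℝ) = -(β + β⁻¹ + 2 * z.re) := by exact_mod_cast c3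
    push_cast
    linarith
  · rw [hint 2, hzyre, hBgre] at c2
    have : (((minpoly ℤ β).coeff 2 : ℤ) : ℝ) = 2 + (β + β⁻¹) * (2 * z.re) := by exact_mod_cast c2
    push_cast
    linarith

/-- The Bernoulli convolution is singular when `λ⁻¹` is a Salem number of degree four. -/
theorem singular_of_salem4 {β : ℝ} (hS : IsSalem β) (hd : (minpoly ℚ β).natDegree = 4) :
    (bernoulliConv β⁻¹).MutuallySingular volume := by
  obtain ⟨σ, a, b, hσ, hre, h1, h2⟩ := salem4_data hS hd
  exact singular_of_quartic hS.1 hσ hre h1 h2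

end Vale.P105
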