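import Vale.Agent.P105.Trig

/-!
# Admissible triples and the doubling step
-/

namespace Vale.P105

open Finset

/-- `A β^j + s A β^(-w-j) + 2 Re (C σ^j)` is an integer for every integer `j` (for a sign `s`). -/
def Adm (β : ℝ) (σ : ℂ) (A : ℝ) (w : ℤ) (C : ℂ) : Prop :=
  ∃ s : ℝ, (s = 1 ∨ s = -1) ∧ ∀ j : ℤ, ∃ m : ℤ,
    A * β ^ j + s * (A * β ^ (-w - j)) + 2 * (C * σ ^ j).re = m

/-- Bound for all finite partial sums of the squares of the distances of `A β^j` to the integers,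
over `j ≤ K`. -/
def SumB (β A K S : ℝ) : Prop :=
  ∀ F : Finset ℤ, (∀ j ∈ F, (j : ℝ) ≤ K) → ∑ j ∈ F, (dz (A * β ^ j)) ^ 2 ≤ S

lemma geom_bound {r : ℝ} (hr0 : 0 < r) (hr1 : r < 1) (F : Finset ℤ) (h : ∀ j ∈ F, 0 ≤ j) :
    ∑ j ∈ F, r ^ j ≤ (1 - r)⁻¹ := by
  have h1 : ∑ j ∈ F, r ^ j = ∑ n ∈ F.image Int.toNat, r ^ n := by
    rw [Finset.sum_image]
    · apply Finset.sum_congr rfl
      intro j hj
      have := h j hj
      conv_lhs => rw [← Int.toNat_of_nonneg this]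
      rw [zpow_natCast]
    · intro a ha b hb hab
      have h1 := h a ha
      have h2 := h b hb
      omega
  rw [h1, ← tsum_geometric_of_lt_one hr0.le hr1]
  apply (summable_geometric_of_lt_one hr0.le hr1).sum_le_tsum
  intro i _
  positivity

lemma geom_bound_le {β : ℝ} (hβ : 2 ≤ β ^ 2) (hβ0 : 0 < β) (F : Finset ℤ) (a : ℤ)
    (h : ∀ j ∈ F, j ≤ a) : ∑ j ∈ F, β ^ (j - a) ≤ 4 := by
  have hβ1 : (7 : ℝ) / 5 ≤ β := by nlinarith
  have hr0 : 0 < β⁻¹ := by positivity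
  have hr1 : β⁻¹ ≤ 5 / 7 := by
    rw [inv_le_comm₀ hβ0 (by norm_num)]
    linarith [hβ1]
  have h1 : ∑ j ∈ F, β ^ (j - a) = ∑ m ∈ F.image (fun j => a - j), (β⁻¹) ^ m := by
    rw [Finset.sum_image]
    · apply Finset.sum_congr rfl
      intro j hj
      rw [inv_zpow', neg_sub]
    · intro x _ y _ hxy
      simp only at hxy
      omega
  rw [h1]
  have h2 := geom_bound hr0 (by linarith) (F.image (fun j => a - j)) (by
    intro m hm
    rw [Finset.mem_image] at hm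
    obtain ⟨j, hj, rfl⟩ := hm
    have := h j hj
    omega)
  refine h2.trans ?_
  have h3 : (2 : ℝ) / 7 ≤ 1 - β⁻¹ := by linarith
  calc (1 - β⁻¹)⁻¹ ≤ ((2 : ℝ) / 7)⁻¹ := by
        apply inv_anti₀ (by norm_num) h3
    _ ≤ 4 := by norm_num

lemma geom_bound_ge {β : ℝ} (hβ : 2 ≤ β ^ 2) (hβ0 : 0 < β) (F : Finset ℤ) (a : ℤ)
    (h : ∀ j ∈ F, a ≤ j) : ∑ j ∈ F, β ^ (a - j) ≤ 4 := by
  have h1 : ∑ j ∈ F, β ^ (a - j) = ∑ m ∈ F.image (fun j => -j), β ^ (m - (-a)) := by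
    rw [Finset.sum_image]
    · apply Finset.sum_congr rfl
      intro j hj
      congr 1
      ring
    · intro x _ y _ hxy
      simpa using hxy
  rw [h1]
  apply geom_bound_le hβ hβ0
  intro m hm
  rw [Finset.mem_image] at hm
  obtain ⟨j, hj, rfl⟩ := hm
  have := h j hj
  omega

lemma dz_sign {s : ℝ} (hs : s = 1 ∨ s = -1) (x : ℝ) : dz (s * x) = dz x := by
  rcases hs with rfl | rfl
  · rw [one_mul]
  · rw [neg_one_mul, dz_neg]

section step

variable {β : ℝ} {σ : ℂ} {A : ℝ} {w : ℤ} {C : ℂ}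

lemma adm_step (hβ0 : 0 < β) (hσ : σ ≠ 0) (h : Adm β σ A w C) (n : ℤ) :
    Adm β σ (A * (β ^ (2 * n) - 1)) (w + 2 * n) (C * (σ ^ (2 * n) - 1)) := by
  obtain ⟨s, hs, h⟩ := h
  refine ⟨-s, ?_, ?_⟩
  · rcases hs with rfl | rfl
    · right; rfl
    · left; norm_num
  intro j
  obtain ⟨m1, h1⟩ := h (2 * n + j)
  obtain ⟨m2, h2⟩ := h j
  refine ⟨m1 - m2, ?_⟩
  push_cast
  rw [← h1, ← h2]
  have e1 : β ^ (2 * n + j) = β ^ (2 * n) * β ^ j := zpow_add₀ hβ0.ne' _ _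
  have e2 : β ^ (-w - (2 * n + j)) * β ^ (2 * n) = β ^ (-w - j) := by
    rw [← zpow_add₀ hβ0.ne']; congr 1; ring
  have e3 : β ^ (-(w + 2 * n) - j) = β ^ (-w - (2 * n + j)) := by congr 1; ring
  have e4 : σ ^ (2 * n + j) = σ ^ (2 * n) * σ ^ j := zpow_add₀ hσ _ _
  rw [e3, e4, e1]
  have e5 : (C * (σ ^ (2 * n) - 1) * σ ^ j).re
      = (C * (σ ^ (2 * n) * σ ^ j)).re - (C * σ ^ j).re := by
    rw [← Complex.sub_re]; congr 1; ring
  rw [e5, ← e2]
  ring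

lemma dz_right (hβ0 : 0 < β) (hσ : ‖σ‖ = 1) (h : Adm β σ A w C) (hA0 : 0 ≤ A) (n j : ℤ) :
    dz (A * (β ^ (2 * n) - 1) * β ^ j) ≤ dz (A * β ^ (-w - j))
      + (A * β ^ (-w) * β ^ (-(2 * n + j)) + 2 * ‖C * (σ ^ (2 * n) - 1)‖) := by
  have hσ0 : σ ≠ 0 := by
    intro h0; rw [h0, norm_zero] at hσ; norm_num at hσ
  obtain ⟨s, hs, h⟩ := h
  obtain ⟨m1, h1⟩ := h (2 * n + j)
  obtain ⟨m2, h2⟩ := h j
  have e1 : β ^ (2 * n + j) = β ^ (2 * n) * β ^ j := zpow_add₀ hβ0.ne' _ _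
  have e3 : β ^ (-w - (2 * n + j)) = β ^ (-w) * β ^ (-(2 * n + j)) := by
    rw [← zpow_add₀ hβ0.ne']; congr 1
  have e4 : σ ^ (2 * n + j) = σ ^ (2 * n) * σ ^ j := zpow_add₀ hσ0 _ _
  have e5 : (C * (σ ^ (2 * n) - 1) * σ ^ j).re
      = (C * (σ ^ (2 * n) * σ ^ j)).re - (C * σ ^ j).re := by
    rw [← Complex.sub_re]; congr 1; ring
  have key : A * (β ^ (2 * n) - 1) * β ^ j = s * (A * β ^ (-w - j))
      + (-(s * (A * β ^ (-w - (2 * n + j)))) - 2 * (C * (σ ^ (2 * n) - 1) * σ ^ j).re)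
      + ((m1 - m2 : ℤ) : ℝ) := by
    push_cast
    rw [← h1, ← h2, e4, e5, e1]
    ring
  have h3 := dz_le_of_int key
  rw [dz_sign hs] at h3
  refine h3.trans ?_
  gcongr
  refine (abs_sub _ _).trans ?_
  rw [abs_neg]
  gcongr
  · rw [abs_mul]
    have : |s| = 1 := by rcases hs with rfl | rfl <;> norm_num
    rw [this, one_mul, e3, abs_of_nonneg (by positivity), mul_assoc]
  · rw [abs_mul, abs_of_pos (by norm_num : (0:ℝ) < 2)]
    gcongr
    refine (Complex.abs_re_le_norm _).trans ?_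
    rw [norm_mul _ (σ ^ j), norm_zpow, hσ, one_zpow, mul_one]

lemma dz_left (hβ0 : 0 < β) (hA0 : 0 ≤ A) (n j : ℤ) :
    dz (A * (β ^ (2 * n) - 1) * β ^ j) ≤ dz (A * β ^ (2 * n + j)) + A * β ^ j := by
  have e1 : β ^ (2 * n + j) = β ^ (2 * n) * β ^ j := zpow_add₀ hβ0.ne' _ _
  have key : A * (β ^ (2 * n) - 1) * β ^ j = A * β ^ (2 * n + j) + (-(A * β ^ j))
      + ((0 : ℤ) : ℝ) := by
    rw [e1]; push_cast; ring
  have h3 := dz_le_of_int key
  rw [abs_neg, abs_of_nonneg (by positivity)] at h3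
  exact h3

lemma sq_add_le (x y : ℝ) : (x + y) ^ 2 ≤ 41 / 40 * x ^ 2 + 41 * y ^ 2 := by
  nlinarith [sq_nonneg (x - 40 * y)]

lemma sumB_step (hβ : 2 ≤ β ^ 2) (hβ0 : 0 < β) (hσ : ‖σ‖ = 1) (h : Adm β σ A w C) (hA0 : 0 ≤ A)
    (hw : 0 ≤ w) (hAw : A ≤ β ^ w) {K S : ℝ} (hS : SumB β A K S) {n : ℤ} (hn : 2 * w ≤ n)
    (hnK : (n : ℝ) ≤ K) {K' δ' : ℝ} (hδ' : ‖C * (σ ^ (2 * n) - 1)‖ ≤ δ')
    (hK' : (K' + n + 1) * δ' ^ 2 ≤ 3) (hK'0 : 0 ≤ K') :
    SumB β (A * (β ^ (2 * n) - 1)) K' (2.05 * S + 1476) := by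
  have hβ1 : (7 : ℝ) / 5 ≤ β := by nlinarith
  have hβ1' : 1 ≤ β := by linarith
  have hn0 : 0 ≤ n := by omega
  have hδ0 : 0 ≤ δ' := (norm_nonneg _).trans hδ'
  intro F hF
  rw [← Finset.sum_filter_add_sum_filter_not F (fun j => -n ≤ j)]
  set F1 := F.filter (fun j => -n ≤ j) with hF1
  set F2 := F.filter (fun j => ¬ (-n ≤ j)) with hF2
  have hF1mem : ∀ j ∈ F1, -n ≤ j ∧ (j : ℝ) ≤ K' := by
    intro j hj
    rw [hF1, Finset.mem_filter] at hj
    exact ⟨hj.2, hF j hj.1⟩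
  have hF2mem : ∀ j ∈ F2, j < -n := by
    intro j hj
    rw [hF2, Finset.mem_filter] at hj
    omega
  -- first part
  have hAB : A * β ^ (-w) ≤ 1 := by
    rw [zpow_neg]
    rw [mul_inv_le_iff₀ (by positivity), one_mul]
    exact hAw
  have part1 : ∑ j ∈ F1, dz (A * (β ^ (2 * n) - 1) * β ^ j) ^ 2 ≤
      41 / 40 * S + 41 * (2 * 4 + 8 * 3) := by
    have b1 : ∀ j ∈ F1, dz (A * (β ^ (2 * n) - 1) * β ^ j) ^ 2 ≤
        41 / 40 * dz (A * β ^ (-w - j)) ^ 2 + 41 * (2 * β ^ (-n - j) + 8 * δ' ^ 2) := by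
      intro j hj
      have hj1 := hF1mem j hj
      have h1 := dz_right hβ0 hσ h hA0 n j
      have h2 : A * β ^ (-w) * β ^ (-(2 * n + j)) + 2 * ‖C * (σ ^ (2 * n) - 1)‖
          ≤ β ^ (-(2 * n + j)) + 2 * δ' := by
        gcongr
        calc A * β ^ (-w) * β ^ (-(2 * n + j)) ≤ 1 * β ^ (-(2 * n + j)) := by gcongr
          _ = _ := one_mul _
      have h3 : dz (A * (β ^ (2 * n) - 1) * β ^ j) ^ 2 ≤
          (dz (A * β ^ (-w - j)) + (β ^ (-(2 * n + j)) + 2 * δ')) ^ 2 := by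
        apply pow_le_pow_left₀ (dz_nonneg _)
        linarith
      refine h3.trans ((sq_add_le _ _).trans ?_)
      gcongr
      have h4 : (β ^ (-(2 * n + j)) + 2 * δ') ^ 2 ≤ 2 * (β ^ (-(2 * n + j))) ^ 2 + 8 * δ' ^ 2 := by
        nlinarith [sq_nonneg (β ^ (-(2 * n + j)) - 2 * δ')]
      refine h4.trans ?_
      gcongr
      have h5 : β ^ (-(2 * n + j)) ≤ 1 := by
        apply zpow_le_one_of_nonpos₀ hβ1'
        omega
      have h6 : β ^ (-(2 * n + j)) ≤ β ^ (-n - j) := by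
        apply zpow_le_zpow_right₀ hβ1'
        omega
      have h7 : 0 ≤ β ^ (-(2 * n + j)) := by positivity
      nlinarith
    refine (Finset.sum_le_sum b1).trans ?_
    rw [Finset.sum_add_distrib, ← Finset.mul_sum, ← Finset.mul_sum, Finset.sum_add_distrib,
      ← Finset.mul_sum, Finset.sum_const, nsmul_eq_mul]
    have c1 : ∑ j ∈ F1, dz (A * β ^ (-w - j)) ^ 2 ≤ S := by
      have : ∑ j ∈ F1, dz (A * β ^ (-w - j)) ^ 2
          = ∑ m ∈ F1.image (fun j => -w - j), dz (A * β ^ m) ^ 2 := by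
        rw [Finset.sum_image]
        intro x _ y _ hxy
        simp only at hxy
        omega
      rw [this]
      apply hS
      intro m hm
      rw [Finset.mem_image] at hm
      obtain ⟨j, hj, rfl⟩ := hm
      have := (hF1mem j hj).1
      refine le_trans ?_ hnK
      exact_mod_cast (by omega : -w - j ≤ n)
    have c2 : ∑ j ∈ F1, β ^ (-n - j) ≤ 4 :=
      geom_bound_ge hβ hβ0 F1 (-n) (fun j hj => (hF1mem j hj).1)
    have c3 : (F1.card : ℝ) * (8 * δ' ^ 2) ≤ 8 * 3 := by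
      have : (F1.card : ℝ) ≤ K' + n + 1 := by
        have hsub : F1 ⊆ Finset.Icc (-n) ⌊K'⌋ := by
          intro j hj
          rw [Finset.mem_Icc]
          exact ⟨(hF1mem j hj).1, Int.le_floor.mpr (hF1mem j hj).2⟩
        have h1 := Finset.card_le_card hsub
        rw [Int.card_Icc] at h1
        have h2 : (F1.card : ℝ) ≤ ((⌊K'⌋ + 1 - -n).toNat : ℝ) := by exact_mod_cast h1
        refine h2.trans ?_
        have h3 : (0 : ℤ) ≤ ⌊K'⌋ := Int.floor_nonneg.mpr hK'0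
        have h4 : ((⌊K'⌋ + 1 - -n).toNat : ℝ) = (⌊K'⌋ : ℝ) + 1 + n := by
          have : ((⌊K'⌋ + 1 - -n).toNat : ℤ) = ⌊K'⌋ + 1 - -n := Int.toNat_of_nonneg (by omega)
          have h5 : (((⌊K'⌋ + 1 - -n).toNat : ℤ) : ℝ) = ((⌊K'⌋ + 1 - -n : ℤ) : ℝ) := by rw [this]
          rw [Int.cast_natCast] at h5
          rw [h5]; push_cast; ring
        rw [h4]
        have := Int.floor_le K'
        linarith
      calc (F1.card : ℝ) * (8 * δ' ^ 2) ≤ (K' + n + 1) * (8 * δ' ^ 2) := by gcongr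
        _ = 8 * ((K' + n + 1) * δ' ^ 2) := by ring
        _ ≤ 8 * 3 := by gcongr
    linarith
  have part2 : ∑ j ∈ F2, dz (A * (β ^ (2 * n) - 1) * β ^ j) ^ 2 ≤
      41 / 40 * S + 41 * 4 := by
    have b1 : ∀ j ∈ F2, dz (A * (β ^ (2 * n) - 1) * β ^ j) ^ 2 ≤
        41 / 40 * dz (A * β ^ (2 * n + j)) ^ 2 + 41 * β ^ (j - (-w)) := by
      intro j hj
      have hj1 := hF2mem j hj
      have h1 := dz_left (β := β) hβ0 hA0 n j
      have h3 : dz (A * (β ^ (2 * n) - 1) * β ^ j) ^ 2 ≤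
          (dz (A * β ^ (2 * n + j)) + A * β ^ j) ^ 2 := by
        apply pow_le_pow_left₀ (dz_nonneg _)
        linarith
      refine h3.trans ((sq_add_le _ _).trans ?_)
      gcongr
      have h4 : A * β ^ j ≤ β ^ (j - (-w)) := by
        calc A * β ^ j ≤ β ^ w * β ^ j := by gcongr
          _ = β ^ (j - (-w)) := by rw [← zpow_add₀ hβ0.ne']; congr 1; ring
      have h5 : β ^ (j - (-w)) ≤ 1 := by
        apply zpow_le_one_of_nonpos₀ hβ1'
        omega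
      have h6 : 0 ≤ A * β ^ j := by positivity
      nlinarith
    refine (Finset.sum_le_sum b1).trans ?_
    rw [Finset.sum_add_distrib, ← Finset.mul_sum, ← Finset.mul_sum]
    have c1 : ∑ j ∈ F2, dz (A * β ^ (2 * n + j)) ^ 2 ≤ S := by
      have : ∑ j ∈ F2, dz (A * β ^ (2 * n + j)) ^ 2
          = ∑ m ∈ F2.image (fun j => 2 * n + j), dz (A * β ^ m) ^ 2 := by
        rw [Finset.sum_image]
        intro x _ y _ hxy
        simp only at hxy
        omega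
      rw [this]
      apply hS
      intro m hm
      rw [Finset.mem_image] at hm
      obtain ⟨j, hj, rfl⟩ := hm
      have := hF2mem j hj
      refine le_trans ?_ hnK
      exact_mod_cast (by omega : 2 * n + j ≤ n)
    have c2 : ∑ j ∈ F2, β ^ (j - (-w)) ≤ 4 :=
      geom_bound_le hβ hβ0 F2 (-w) (fun j hj => by have := hF2mem j hj; omega)
    linarith
  have := add_le_add part1 part2
  refine this.trans (le_of_eq ?_)
  ring

end step

end Vale.P105
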