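import Vale.Agent.P105.State

/-!
# The recursion: states with `Λ` growing faster than `S`
-/

namespace Vale.P105

open Finset

section

variable {β : ℝ} {σ : ℂ} {A : ℝ} {w : ℤ} {C : ℂ}

lemma marg_step (hβ1 : 1 ≤ β) (hσ : ‖σ‖ = 1) (h : Adm β σ A w C) (hA1 : 1 ≤ A)
    (hAw : A ≤ β ^ w) {μ : ℝ} (hm : ∀ j : ℤ, dz (A * β ^ j) ≤ μ) (n : ℤ) (j : ℤ) :
    dz (A * (β ^ (2 * n) - 1) * β ^ j) ≤ μ + (A * β ^ (-n) + 2 * ‖C * (σ ^ (2 * n) - 1)‖) := by
  have hβ0 : 0 < β := by linarith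
  have hA0 : 0 ≤ A := by linarith
  rcases le_or_gt (-n) j with hj | hj
  · refine (dz_right hβ0 hσ h hA0 n j).trans ?_
    have hAB : A * β ^ (-w) ≤ 1 := by
      rw [zpow_neg, mul_inv_le_iff₀ (by positivity), one_mul]
      exact hAw
    have h5 : β ^ (-(2 * n + j)) ≤ β ^ (-n) := by
      apply zpow_le_zpow_right₀ hβ1
      omega
    have h6 : A * β ^ (-w) * β ^ (-(2 * n + j)) ≤ A * β ^ (-n) := by
      calc A * β ^ (-w) * β ^ (-(2 * n + j)) ≤ 1 * β ^ (-n) := by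
            apply mul_le_mul hAB h5 (by positivity) (by norm_num)
        _ ≤ A * β ^ (-n) := by gcongr
    have h7 := hm (-w - j)
    linarith
  · refine (dz_left hβ0 hA0 n j).trans ?_
    have h5 : β ^ j ≤ β ^ (-n) := by
      apply zpow_le_zpow_right₀ hβ1
      omega
    have h6 : A * β ^ j ≤ A * β ^ (-n) := by gcongr
    have h7 := hm (2 * n + j)
    have h8 : 0 ≤ 2 * ‖C * (σ ^ (2 * n) - 1)‖ := by positivity
    linarith

/-- The data carried along the recursion. -/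
structure St (β : ℝ) (σ : ℂ) (c L S A : ℝ) (w : ℤ) (C : ℂ) : Prop where
  adm : Adm β σ A w C
  hA1 : 1 ≤ A
  hAw : A ≤ β ^ w
  hw0 : 1 ≤ w
  hw : (w : ℝ) ≤ Real.exp (3 / 4 * L)
  hC : ‖C‖ ≤ Real.exp (-L)
  marg : ∀ j : ℤ, dz (A * β ^ j) ≤ 1 / 2 - (c + 4 * (β ^ (-w) + Real.exp (-L)))
  sum : SumB β A (Real.exp (2 * L)) S

lemma st_step (hβ : 2 ≤ β ^ 2) (hβ0 : 0 < β) (hσ : ‖σ‖ = 1) {c L S : ℝ} (hL : 0 ≤ L)
    (hst : St β σ c L S A w C) {n : ℤ} (hn : 2 * w ≤ n) (hnK : (n : ℝ) ≤ Real.exp (2 * L))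
    {L' : ℝ} (hL' : L + 1 ≤ L') (hη : Real.exp (-L) * ‖σ ^ (2 * n) - 1‖ ≤ Real.exp (-L'))
    (hw' : ((w + 2 * n : ℤ) : ℝ) ≤ Real.exp (3 / 4 * L')) :
    St β σ c L' (2.05 * S + 1476) (A * (β ^ (2 * n) - 1)) (w + 2 * n) (C * (σ ^ (2 * n) - 1)) := by
  have hβ1 : (7 : ℝ) / 5 ≤ β := by nlinarith
  have hβ1' : 1 ≤ β := by linarith
  have hσ0 : σ ≠ 0 := by
    intro h0; rw [h0, norm_zero] at hσ; norm_num at hσ
  have hw0 := hst.hw0
  have hn1 : 1 ≤ n := by omega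
  have hβn : 2 ≤ β ^ (2 * n) := by
    calc (2 : ℝ) ≤ β ^ (2 : ℤ) := by
          rw [show (2 : ℤ) = ((2 : ℕ) : ℤ) by norm_num, zpow_natCast]; exact hβ
      _ ≤ β ^ (2 * n) := by
          apply zpow_le_zpow_right₀ hβ1'
          omega
  have hC' : ‖C * (σ ^ (2 * n) - 1)‖ ≤ Real.exp (-L') := by
    rw [norm_mul]
    refine le_trans ?_ hη
    gcongr
    exact hst.hC
  have hA0 : 0 ≤ A := by linarith [hst.hA1]
  refine ⟨adm_step hβ0 hσ0 hst.adm n, ?_, ?_, by omega, hw', hC', ?_, ?_⟩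
  · have := hst.hA1
    nlinarith
  · calc A * (β ^ (2 * n) - 1) ≤ β ^ w * β ^ (2 * n) := by
          gcongr
          · linarith
          · exact hst.hAw
          · linarith
      _ = β ^ (w + 2 * n) := by rw [← zpow_add₀ hβ0.ne']
  · intro j
    refine (marg_step hβ1' hσ hst.adm hst.hA1 hst.hAw hst.marg n j).trans ?_
    have e1 : A * β ^ (-n) ≤ β ^ (-w) := by
      calc A * β ^ (-n) ≤ β ^ w * β ^ (-n) := by gcongr; exact hst.hAw
        _ = β ^ (w - n) := by rw [← zpow_add₀ hβ0.ne']; congr 1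
        _ ≤ β ^ (-w) := by
            apply zpow_le_zpow_right₀ hβ1'
            omega
    have e2 : 2 * β ^ (-(w + 2 * n)) ≤ β ^ (-w) := by
      calc 2 * β ^ (-(w + 2 * n)) ≤ β ^ (2 * n) * β ^ (-(w + 2 * n)) := by gcongr
        _ = β ^ (-w) := by rw [← zpow_add₀ hβ0.ne']; congr 1; ring
    have e3 : Real.exp (-L') ≤ Real.exp (-L) / 2 := by
      have h1 : Real.exp (-L') ≤ Real.exp (-L) * Real.exp (-1) := by
        rw [← Real.exp_add]
        apply Real.exp_le_exp.mpr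
        linarith
      have h2 : Real.exp (-1) ≤ 1 / 2 := by
        rw [Real.exp_neg, inv_eq_one_div]
        apply one_div_le_one_div_of_le (by norm_num)
        have := Real.add_one_le_exp (1 : ℝ)
        linarith
      have h3 := Real.exp_pos (-L)
      nlinarith
    have e4 : 0 < β ^ (-w) := by positivity
    have e5 := Real.exp_pos (-L)
    linarith
  · apply sumB_step hβ hβ0 hσ hst.adm hA0 (by omega) hst.hAw hst.sum hn hnK hC'
    · have h1 : (n : ℝ) ≤ Real.exp (2 * L') := by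
        refine hnK.trans (Real.exp_le_exp.mpr ?_)
        linarith
      have h2 : (1 : ℝ) ≤ Real.exp (2 * L') := by
        apply Real.one_le_exp
        linarith
      have h3 : Real.exp (2 * L') * Real.exp (-L') ^ 2 = 1 := by
        rw [← Real.exp_nat_mul, ← Real.exp_add]
        norm_num
      calc (Real.exp (2 * L') + n + 1) * Real.exp (-L') ^ 2
          ≤ (Real.exp (2 * L') + Real.exp (2 * L') + Real.exp (2 * L')) * Real.exp (-L') ^ 2 := by
            gcongr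
        _ = 3 * (Real.exp (2 * L') * Real.exp (-L') ^ 2) := by ring
        _ = 3 := by rw [h3]; norm_num
        _ ≤ 3 := le_refl _
    · positivity

end

section dirichlet

variable {σ : ℂ}

lemma norm_pow_mul_sub_one_le (hσ : ‖σ‖ = 1) (q m : ℕ) :
    ‖σ ^ (q * m) - 1‖ ≤ m * ‖σ ^ q - 1‖ := by
  induction m with
  | zero => simp
  | succ m ih =>
    have : σ ^ (q * (m + 1)) - 1 = σ ^ q * (σ ^ (q * m) - 1) + (σ ^ q - 1) := by ring
    rw [this]
    refine (norm_add_le _ _).trans ?_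
    rw [norm_mul, norm_pow, hσ, one_pow, one_mul]
    push_cast
    linarith

lemma exists_good (hσ : ‖σ‖ = 1) {Q : ℕ} (hQ : 0 < Q) :
    ∃ q : ℕ, 1 ≤ q ∧ q ≤ Q ∧ ‖σ ^ q - 1‖ ≤ 7 / Q := by
  obtain ⟨θ, hθ⟩ : ∃ θ : ℝ, σ = Complex.exp (θ * Complex.I) := by
    refine ⟨Complex.arg σ, ?_⟩
    have := Complex.norm_mul_exp_arg_mul_I σ
    rw [hσ, Complex.ofReal_one, one_mul] at this
    exact this.symm
  obtain ⟨j, k, hk0, hkQ, hjk⟩ := Real.exists_int_int_abs_mul_sub_le (θ / (2 * Real.pi)) hQ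
  refine ⟨k.toNat, by omega, by omega, ?_⟩
  have hk : ((k.toNat : ℕ) : ℝ) = (k : ℝ) := by
    have : ((k.toNat : ℕ) : ℤ) = k := Int.toNat_of_nonneg hk0.le
    exact_mod_cast congrArg (fun z : ℤ => (z : ℝ)) this
  have h1 : σ ^ k.toNat = Complex.exp (Complex.I * ((2 * Real.pi * (k * (θ / (2 * Real.pi)) - j) : ℝ))) := by
    rw [hθ, ← Complex.exp_nat_mul]
    rw [Complex.exp_eq_exp_iff_exists_int]
    refine ⟨j, ?_⟩
    have hk' : ((k.toNat : ℕ) : ℂ) = (k : ℂ) := by exact_mod_cast congrArg (fun z : ℝ => (z : ℂ)) hk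
    rw [hk']
    push_cast
    have hpi : (Real.pi : ℂ) ≠ 0 := by exact_mod_cast Real.pi_ne_zero
    field_simp
    ring
  rw [h1]
  refine (Real.norm_exp_I_mul_ofReal_sub_one_le).trans ?_
  rw [Real.norm_eq_abs, abs_mul, abs_of_pos (by positivity : 0 < 2 * Real.pi)]
  calc 2 * Real.pi * |↑k * (θ / (2 * Real.pi)) - ↑j| ≤ 7 * (1 / (Q + 1)) := by
        gcongr
        linarith [Real.pi_lt_d2]
    _ ≤ 7 / Q := by
        rw [mul_one_div]
        gcongr
        linarith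

/-- Choice of the exponent. -/
lemma exists_exponent (hσ : ‖σ‖ = 1) {Q : ℕ} (hQ : 0 < Q) (N : ℕ) :
    ∃ q h : ℕ, 1 ≤ q ∧ q ≤ Q ∧ N ≤ h ∧ h ≤ N + q ∧
      ‖σ ^ h - 1‖ ≤ (N / q + 1) * (7 / Q) := by
  obtain ⟨q, hq1, hqQ, hq⟩ := exists_good hσ hQ
  refine ⟨q, q * ((N + q - 1) / q), hq1, hqQ, ?_, ?_, ?_⟩
  · have := Nat.lt_mul_div_succ (N + q - 1) (by omega : 0 < q)
    rw [mul_add, mul_one] at this
    omega
  · have := Nat.mul_div_le (N + q - 1) q
    omega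
  · refine (norm_pow_mul_sub_one_le hσ _ _).trans ?_
    gcongr
    have h1 : (((N + q - 1) / q : ℕ) : ℝ) ≤ ((N + q - 1 : ℕ) : ℝ) / q := Nat.cast_div_le
    refine h1.trans ?_
    have hq0 : (0 : ℝ) < q := by exact_mod_cast (by omega : 0 < q)
    rw [div_le_iff₀ hq0, add_mul, div_mul_cancel₀ _ hq0.ne', one_mul]
    have : N + q - 1 ≤ N + q := by omega
    exact_mod_cast this

end dirichlet

end Vale.P105
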