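import Mathlib

/-!
# Distance to the nearest integer and elementary trigonometric estimates
-/

namespace Vale.P105

/-- Distance to the nearest integer. -/
noncomputable def dz (x : ℝ) : ℝ := |x - round x|

lemma dz_nonneg (x : ℝ) : 0 ≤ dz x := abs_nonneg _

lemma dz_le_half (x : ℝ) : dz x ≤ 1 / 2 := abs_sub_round x

lemma dz_le_int (x : ℝ) (m : ℤ) : dz x ≤ |x - m| := round_le x m

lemma dz_le_abs (x : ℝ) : dz x ≤ |x| := by
  simpa using dz_le_int x 0

/-- If `x - y - e` is an integer, then `dz x ≤ dz y + |e|`. -/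
lemma dz_le_of_int {x y e : ℝ} {m : ℤ} (h : x = y + e + m) : dz x ≤ dz y + |e| := by
  have h1 := dz_le_int x (round y + m)
  have h2 : x - ((round y + m : ℤ) : ℝ) = (y - round y) + e := by
    push_cast; rw [h]; ring
  rw [h2] at h1
  exact h1.trans (abs_add_le _ _)

lemma dz_neg (x : ℝ) : dz (-x) = dz x := by
  apply le_antisymm
  · have h1 := dz_le_int (-x) (-round x)
    have : -x - ((-round x : ℤ) : ℝ) = -(x - round x) := by push_cast; ring
    rw [this, abs_neg] at h1
    exact h1
  · have h1 := dz_le_int x (-round (-x))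
    have : x - ((-round (-x) : ℤ) : ℝ) = -(-x - round (-x)) := by push_cast; ring
    rw [this, abs_neg] at h1
    exact h1

lemma abs_cos_sub_int (x : ℝ) (m : ℤ) : |Real.cos (Real.pi * (x - m))| = |Real.cos (Real.pi * x)| := by
  have : Real.pi * (x - m) = Real.pi * x - m * Real.pi := by ring
  rw [this, Real.cos_sub_int_mul_pi]
  rw [abs_mul]
  have : |((-1 : ℝ) ^ m)| = 1 := by
    rw [abs_zpow]; simp
  rw [this, one_mul]

lemma abs_sin_sub_int (x : ℝ) (m : ℤ) : |Real.sin (Real.pi * (x - m))| = |Real.sin (Real.pi * x)| := by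
  have : Real.pi * (x - m) = Real.pi * x - m * Real.pi := by ring
  rw [this, Real.sin_sub_int_mul_pi]
  rw [abs_mul]
  have : |((-1 : ℝ) ^ m)| = 1 := by
    rw [abs_zpow]; simp
  rw [this, one_mul]

lemma abs_cos_eq (x : ℝ) : |Real.cos (Real.pi * x)| = Real.cos (Real.pi * dz x) := by
  rw [← abs_cos_sub_int x (round x)]
  have h : |Real.cos (Real.pi * (x - round x))| = |Real.cos (Real.pi * dz x)| := by
    unfold dz
    rcases abs_cases (x - (round x : ℝ)) with h | h
    · rw [h.1]
    · rw [h.1]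
      have : Real.pi * -(x - (round x : ℝ)) = -(Real.pi * (x - round x)) := by ring
      rw [this, Real.cos_neg]
  rw [h]
  apply abs_of_nonneg
  apply Real.cos_nonneg_of_neg_pi_div_two_le_of_le
  · have := dz_nonneg x
    have := Real.pi_pos
    nlinarith
  · have := dz_le_half x
    have := Real.pi_pos
    nlinarith

lemma abs_sin_le (x : ℝ) : |Real.sin (Real.pi * x)| ≤ Real.pi * dz x := by
  rw [← abs_sin_sub_int x (round x)]
  refine (Real.abs_sin_le_abs).trans ?_
  rw [abs_mul, abs_of_pos Real.pi_pos]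
  rfl

lemma two_mul_le_abs_cos {x c : ℝ} (h : dz x ≤ 1 / 2 - c) :
    2 * c ≤ |Real.cos (Real.pi * x)| := by
  rw [abs_cos_eq]
  have h1 : 1 - 2 / Real.pi * (Real.pi * dz x) ≤ Real.cos (Real.pi * dz x) := by
    apply Real.one_sub_mul_le_cos (mul_nonneg Real.pi_pos.le (dz_nonneg x))
    have := dz_le_half x
    have := Real.pi_pos
    nlinarith
  have h2 : 2 / Real.pi * (Real.pi * dz x) = 2 * dz x := by
    field_simp
  rw [h2] at h1
  linarith

lemma exp_le_abs_cos {x c : ℝ} (hc : 0 < c) (h : dz x ≤ 1 / 2 - c) :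
    Real.exp (-(Real.pi ^ 2 / (4 * c) * dz x ^ 2)) ≤ |Real.cos (Real.pi * x)| := by
  have h2 := two_mul_le_abs_cos h
  have hpos : 0 < |Real.cos (Real.pi * x)| := by linarith
  rw [← Real.le_log_iff_exp_le hpos]
  have h3 := Real.one_sub_inv_le_log_of_pos hpos
  refine le_trans ?_ h3
  have h4 : 1 - (Real.pi * dz x) ^ 2 / 2 ≤ |Real.cos (Real.pi * x)| := by
    rw [abs_cos_eq]
    exact Real.one_sub_sq_div_two_le_cos
  set y := |Real.cos (Real.pi * x)| with hy
  have h5 : 1 - y⁻¹ = -((1 - y) / y) := by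
    field_simp
    ring
  rw [h5, neg_le_neg_iff]
  have h6 : (1 - y) / y ≤ ((Real.pi * dz x) ^ 2 / 2) / (2 * c) := by
    apply div_le_div₀
    · positivity
    · linarith
    · positivity
    · exact h2
  refine h6.trans (le_of_eq ?_)
  field_simp
  ring

lemma abs_tan_le {x c : ℝ} (hc : 0 < c) (h : dz x ≤ 1 / 2 - c) :
    |Real.tan (Real.pi * x)| ≤ Real.pi / (2 * c) * dz x := by
  have h2 := two_mul_le_abs_cos h
  rw [Real.tan_eq_sin_div_cos, abs_div]
  have h3 := abs_sin_le x
  calc |Real.sin (Real.pi * x)| / |Real.cos (Real.pi * x)| ≤ (Real.pi * dz x) / (2 * c) := by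
        apply div_le_div₀
        · exact mul_nonneg Real.pi_pos.le (dz_nonneg x)
        · exact h3
        · positivity
        · exact h2
    _ = Real.pi / (2 * c) * dz x := by ring

lemma cos_ne_zero_of {x c : ℝ} (hc : 0 < c) (h : dz x ≤ 1 / 2 - c) :
    Real.cos (Real.pi * x) ≠ 0 := by
  have h2 := two_mul_le_abs_cos h
  intro h0
  rw [h0, abs_zero] at h2
  linarith

end Vale.P105
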